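import Crest.Agent.PT.Macros

set_option autoImplicit false

namespace Crest.Agent.PT

open Function (update)

theorem PT_id : PT (fun x => x) :=
  ⟨.skip, 1, fun x => ⟨1, by simp, Exec.skip _⟩⟩

theorem PT_comp {f g : List Bool → List Bool} (hf : PT f) (hg : PT g) : PT (fun x => g (f x)) := by
  obtain ⟨Q, hQ⟩ := PT_size hf
  obtain ⟨p, P, hp⟩ := hf
  obtain ⟨q, R, hq⟩ := hg
  refine ⟨.seq p q, P + R.comp Q, fun x => ?_⟩
  obtain ⟨t, ht, he⟩ := hp x
  obtain ⟨t', ht', he'⟩ := hq (f x)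
  refine ⟨t + t', ?_, Exec.seq he he'⟩
  simp only [Polynomial.eval_add, Polynomial.eval_comp]
  exact add_le_add ht (ht'.trans (poly_mono R (hQ x)))

theorem PT_const (c : List Bool) : PT (fun _ => c) := by
  refine ⟨.seq (clear 0) (pushL 0 c), 2 * Polynomial.X + (Polynomial.C (c.length + 2)), fun x => ?_⟩
  refine ⟨_, ?_, (Exec.seq (exec_clear 0 _) (exec_pushL 0 c _)).cast ?_ rfl⟩
  · simp [init]; omega
  · rw [update_init, update_init]; simp

theorem PT_cons (b : Bool) : PT (fun x => b :: x) :=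
  ⟨.push 0 b, 1, fun x => ⟨1, by simp, (Exec.push 0 b _).cast (update_init _ _) rfl⟩⟩

theorem PT_tail : PT (fun x => x.tail) :=
  ⟨.pop 0, 1, fun x => ⟨1, by simp, (Exec.pop 0 _).cast (update_init _ _) rfl⟩⟩

theorem PT_cases {f g h : List Bool → List Bool} (hf : PT f) (hg : PT g) (hh : PT h) :
    PT (fun x => match x with
      | [] => f []
      | false :: l => g (false :: l)
      | true :: l => h (true :: l)) := by
  obtain ⟨p, P, hp⟩ := hf
  obtain ⟨q, Q, hq⟩ := hg
  obtain ⟨r, R, hr⟩ := hh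
  refine ⟨.ite 0 p q r, P + Q + R + 1, fun x => ?_⟩
  simp only [Polynomial.eval_add, Polynomial.eval_one]
  match x with
  | [] =>
    obtain ⟨t, ht, he⟩ := hp []
    exact ⟨t + 1, by omega, Exec.ite_nil rfl he⟩
  | false :: l =>
    obtain ⟨t, ht, he⟩ := hq (false :: l)
    exact ⟨t + 1, by omega, Exec.ite_false rfl he⟩
  | true :: l =>
    obtain ⟨t, ht, he⟩ := hr (true :: l)
    exact ⟨t + 1, by omega, Exec.ite_true rfl he⟩

end Crest.Agent.PT
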