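import Crest.Agent.PT.Macros

set_option autoImplicit false

namespace Crest.Agent.PT

open Function (update)

/-- body of the loop computing the first projection: stack `1` is the running flag, the output is
collected (reversed) on stack `2` -/
def fstBody : Prog :=
  .ite 0 (.pop 1) (.pop 1)
    (.seq (.pop 0) (.ite 0 (.pop 1) (.seq (.push 2 false) (.pop 0))
      (.seq (.push 2 true) (.pop 0))))

theorem exec_fstLoop (n : ℕ) : ∀ (l : List Bool), l.length ≤ n → ∀ s : St, s 0 = l →
    s 1 = [true] →
    ∃ (r : List Bool) (t : ℕ), r.length ≤ l.length ∧ t ≤ 8 * l.length + 8 ∧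
      Exec (.loop 1 fstBody) s
        (update (update (update s 0 r) 1 []) 2 ((fstP l).reverse ++ s 2)) t := by
  induction n with
  | zero =>
    intro l hl s h0 h1
    have : l = [] := List.length_eq_zero_iff.mp (by omega)
    subst this
    refine ⟨[], 4, by simp, by simp, ?_⟩
    refine (Exec.loop_step (t := 2) (t' := 1) (by simp [h1])
      (Exec.ite_nil h0 (Exec.pop 1 s)) (Exec.loop_done (by simp [h1]))).cast ?_ rfl
    funext x
    by_cases hx2 : x = 2
    · subst hx2; simp [fstP]
    · by_cases hx1 : x = 1
      · subst hx1; simp [h1]
      · by_cases hx0 : x = 0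
        · subst hx0; simp [h0]
        · simp [Function.update_of_ne hx2, Function.update_of_ne hx1, Function.update_of_ne hx0]
  | succ n ih =>
    intro l hl s h0 h1
    match l, hl, h0 with
    | [], _, h0 =>
      refine ⟨[], 4, by simp, by simp, ?_⟩
      refine (Exec.loop_step (t := 2) (t' := 1) (by simp [h1])
        (Exec.ite_nil h0 (Exec.pop 1 s)) (Exec.loop_done (by simp [h1]))).cast ?_ rfl
      funext x
      by_cases hx2 : x = 2
      · subst hx2; simp [fstP]
      · by_cases hx1 : x = 1
        · subst hx1; simp [h1]
        · by_cases hx0 : x = 0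
          · subst hx0; simp [h0]
          · simp [Function.update_of_ne hx2, Function.update_of_ne hx1, Function.update_of_ne hx0]
    | false :: l, _, h0 =>
      refine ⟨false :: l, 4, by simp, by simp, ?_⟩
      refine (Exec.loop_step (t := 2) (t' := 1) (by simp [h1])
        (Exec.ite_false (by simp [h0]) (Exec.pop 1 s)) (Exec.loop_done (by simp [h1]))).cast ?_ rfl
      funext x
      by_cases hx2 : x = 2
      · subst hx2; simp [fstP]
      · by_cases hx1 : x = 1
        · subst hx1; simp [h1]
        · by_cases hx0 : x = 0
          · subst hx0; simp [h0]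
          · simp [Function.update_of_ne hx2, Function.update_of_ne hx1, Function.update_of_ne hx0]
    | [true], _, h0 =>
      refine ⟨[], 6, by simp, by simp, ?_⟩
      refine (Exec.loop_step (t := 4) (t' := 1) (by simp [h1])
        (Exec.ite_true (t := 3) (by simp [h0])
          (Exec.seq (t := 1) (t' := 2) (Exec.pop 0 s) (Exec.ite_nil (by simp [h0]) (Exec.pop 1 _))))
        (Exec.loop_done (by simp [h1]))).cast ?_ rfl
      funext x
      by_cases hx2 : x = 2
      · subst hx2; simp [fstP]
      · by_cases hx1 : x = 1
        · subst hx1; simp [h1]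
        · by_cases hx0 : x = 0
          · subst hx0; simp [h0]
          · simp [Function.update_of_ne hx2, Function.update_of_ne hx1, Function.update_of_ne hx0]
    | true :: c :: l, hl, h0 =>
      have hl' : l.length ≤ n := by simp at hl; omega
      set s1 : St := update (update s 2 (c :: s 2)) 0 l with hs1
      obtain ⟨r, t, hr, ht, he⟩ := ih l hl' s1 (by simp [hs1]) (by simp [hs1, h1])
      have hbody : Exec fstBody s s1 5 := by
        refine Exec.ite_true (t := 4) (by simp [h0]) ?_
        refine Exec.seq (t := 1) (t' := 3) (Exec.pop 0 s) ?_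
        have hp : ∀ b, Exec (.seq (.push 2 b) (.pop 0)) (update s 0 (s 0).tail)
            (update (update s 2 (b :: s 2)) 0 l) 2 := by
          intro b
          refine (Exec.seq (Exec.push 2 b _) (Exec.pop 0 _)).cast ?_ rfl
          funext x
          by_cases hx0 : x = 0
          · subst hx0; simp [h0]
          · by_cases hx2 : x = 2
            · subst hx2; simp
            · simp [Function.update_of_ne hx2, Function.update_of_ne hx0]
        cases c
        · exact Exec.ite_false (by simp [h0]) (hp false)
        · exact Exec.ite_true (by simp [h0]) (hp true)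
      refine ⟨r, 5 + t + 1, by simp; omega, by simp; omega, ?_⟩
      refine (Exec.loop_step (by simp [h1]) hbody he).cast ?_ rfl
      funext x
      by_cases hx2 : x = 2
      · subst hx2; simp [fstP, hs1]
      · by_cases hx1 : x = 1
        · subst hx1; simp
        · by_cases hx0 : x = 0
          · subst hx0; simp
          · simp [hs1, Function.update_of_ne hx2, Function.update_of_ne hx1,
              Function.update_of_ne hx0]

theorem PT_fst : PT fstP := by
  refine ⟨.seq (.push 1 true) (.seq (.loop 1 fstBody) (.seq (clear 0) (moveRev 2 0))),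
    14 * Polynomial.X + Polynomial.C 20, fun x => ?_⟩
  have i1 : init x 1 = [] := init_pos x (by omega)
  have i2 : init x 2 = [] := init_pos x (by omega)
  set s1 : St := update (init x) 1 (true :: init x 1) with hs1
  obtain ⟨r, t, hr, ht, he⟩ := exec_fstLoop x.length x le_rfl s1 (by simp [hs1]) (by simp [hs1, i1])
  refine ⟨_, ?_, (Exec.seq (Exec.push 1 true _) (Exec.seq he (Exec.seq (exec_clear 0 _)
    (exec_moveRev (i := 2) (j := 0) (by omega) _)))).cast ?_ rfl⟩
  · have hlen : (fstP x).length ≤ x.length := by
      have : ∀ n (y : List Bool), y.length ≤ n → (fstP y).length ≤ y.length := by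
        intro n
        induction n with
        | zero =>
          intro y hy
          have : y = [] := List.length_eq_zero_iff.mp (by omega)
          subst this; simp [fstP]
        | succ n ih =>
          intro y hy
          match y, hy with
          | [], _ => simp [fstP]
          | false :: l, _ => simp [fstP]
          | [true], _ => simp [fstP]
          | true :: c :: l, hy =>
            have := ih l (by simp at hy; omega)
            simp [fstP]; omega
      exact this _ x le_rfl
    simp [hs1, i2]
    omega
  · funext y
    by_cases hy0 : y = 0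
    · subst hy0; simp [hs1, i2]
    · by_cases hy2 : y = 2
      · subst hy2; simp [init_pos]
      · by_cases hy1 : y = 1
        · subst hy1; simp [init_pos]
        · simp [hs1, Function.update_of_ne hy0, Function.update_of_ne hy1, Function.update_of_ne hy2,
            init, hy0]

/-- body of the loop computing the second projection (flag on stack `1`) -/
def sndBody : Prog :=
  .ite 0 (.pop 1) (.seq (.pop 0) (.pop 1))
    (.seq (.pop 0) (.ite 0 (.pop 1) (.pop 0) (.pop 0)))

theorem exec_sndLoop (n : ℕ) : ∀ (l : List Bool), l.length ≤ n → ∀ s : St, s 0 = l →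
    s 1 = [true] →
    ∃ t : ℕ, t ≤ 8 * l.length + 8 ∧
      Exec (.loop 1 sndBody) s (update (update s 0 (sndP l)) 1 []) t := by
  induction n with
  | zero =>
    intro l hl s h0 h1
    have : l = [] := List.length_eq_zero_iff.mp (by omega)
    subst this
    refine ⟨4, by simp, ?_⟩
    refine (Exec.loop_step (t := 2) (t' := 1) (by simp [h1])
      (Exec.ite_nil h0 (Exec.pop 1 s)) (Exec.loop_done (by simp [h1]))).cast ?_ rfl
    funext x
    by_cases hx1 : x = 1
    · subst hx1; simp [h1]
    · by_cases hx0 : x = 0
      · subst hx0; simp [h0, sndP]
      · simp [Function.update_of_ne hx1, Function.update_of_ne hx0]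
  | succ n ih =>
    intro l hl s h0 h1
    match l, hl, h0 with
    | [], _, h0 =>
      refine ⟨4, by simp, ?_⟩
      refine (Exec.loop_step (t := 2) (t' := 1) (by simp [h1])
        (Exec.ite_nil h0 (Exec.pop 1 s)) (Exec.loop_done (by simp [h1]))).cast ?_ rfl
      funext x
      by_cases hx1 : x = 1
      · subst hx1; simp [h1]
      · by_cases hx0 : x = 0
        · subst hx0; simp [h0, sndP]
        · simp [Function.update_of_ne hx1, Function.update_of_ne hx0]
    | false :: l, _, h0 =>
      refine ⟨5, by simp, ?_⟩
      refine (Exec.loop_step (t := 3) (t' := 1) (by simp [h1])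
        (Exec.ite_false (t := 2) (by simp [h0]) (Exec.seq (Exec.pop 0 s) (Exec.pop 1 _)))
        (Exec.loop_done (by simp [h1]))).cast ?_ rfl
      funext x
      by_cases hx1 : x = 1
      · subst hx1; simp [h1]
      · by_cases hx0 : x = 0
        · subst hx0; simp [h0, sndP]
        · simp [Function.update_of_ne hx1, Function.update_of_ne hx0]
    | [true], _, h0 =>
      refine ⟨6, by simp, ?_⟩
      refine (Exec.loop_step (t := 4) (t' := 1) (by simp [h1])
        (Exec.ite_true (t := 3) (by simp [h0])
          (Exec.seq (t := 1) (t' := 2) (Exec.pop 0 s) (Exec.ite_nil (by simp [h0]) (Exec.pop 1 _))))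
        (Exec.loop_done (by simp [h1]))).cast ?_ rfl
      funext x
      by_cases hx1 : x = 1
      · subst hx1; simp [h1]
      · by_cases hx0 : x = 0
        · subst hx0; simp [h0, sndP]
        · simp [Function.update_of_ne hx1, Function.update_of_ne hx0]
    | true :: c :: l, hl, h0 =>
      have hl' : l.length ≤ n := by simp at hl; omega
      set s1 : St := update s 0 l with hs1
      obtain ⟨t, ht, he⟩ := ih l hl' s1 (by simp [hs1]) (by simp [hs1, h1])
      have hbody : Exec sndBody s s1 4 := by
        refine Exec.ite_true (t := 3) (by simp [h0]) ?_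
        refine Exec.seq (t := 1) (t' := 2) (Exec.pop 0 s) ?_
        have hp : Exec (.pop 0) (update s 0 (s 0).tail) s1 1 := by
          refine (Exec.pop 0 _).cast ?_ rfl
          simp [h0, hs1]
        cases c
        · exact Exec.ite_false (by simp [h0]) hp
        · exact Exec.ite_true (by simp [h0]) hp
      refine ⟨4 + t + 1, by simp; omega, ?_⟩
      refine (Exec.loop_step (by simp [h1]) hbody he).cast ?_ rfl
      funext x
      by_cases hx1 : x = 1
      · subst hx1; simp
      · by_cases hx0 : x = 0
        · subst hx0; simp [sndP]
        · simp [hs1, Function.update_of_ne hx1, Function.update_of_ne hx0]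

theorem PT_snd : PT sndP := by
  refine ⟨.seq (.push 1 true) (.loop 1 sndBody), 8 * Polynomial.X + Polynomial.C 9, fun x => ?_⟩
  have i1 : init x 1 = [] := init_pos x (by omega)
  set s1 : St := update (init x) 1 (true :: init x 1) with hs1
  obtain ⟨t, ht, he⟩ := exec_sndLoop x.length x le_rfl s1 (by simp [hs1]) (by simp [hs1, i1])
  refine ⟨1 + t, ?_, (Exec.seq (Exec.push 1 true _) he).cast ?_ rfl⟩
  · simp; omega
  · funext y
    by_cases hy1 : y = 1
    · subst hy1; simp [init_pos]
    · by_cases hy0 : y = 0
      · subst hy0; simp
      · simp [hs1, Function.update_of_ne hy0, Function.update_of_ne hy1, init, hy0]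

end Crest.Agent.PT
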