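import Crest.Agent.PT.Macros
import Crest.Agent.PT.CProj

set_option autoImplicit false

namespace Crest.Agent.PT

open Function (update)

namespace CIter

theorem length_fstP_le : ∀ x : List Bool, (fstP x).length ≤ x.length
  | [] => by simp [fstP]
  | false :: l => by simp [fstP]
  | [true] => by simp [fstP]
  | true :: c :: l => by
    have := length_fstP_le l
    simp only [fstP, List.length_cons]
    omega

/-- the main loop: the counter on stack `0`, the running value on stack `1` -/
theorem exec_loop {f : List Bool → List Bool} {p : Prog} {P : Polynomial ℕ}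
    (hp : ∀ s : St, (∀ j, 1 < j → s j = []) →
      ∃ t : ℕ, t ≤ P.eval (s 1).length ∧ Exec p s (update s 1 (f (s 1))) t)
    (M : ℕ) : ∀ (c : List Bool) (s : St), s 0 = c → (∀ j, 1 < j → s j = []) →
      (∀ i ≤ c.length, (f^[i] (s 1)).length ≤ M) →
      ∃ t : ℕ, t ≤ c.length * (P.eval M + 2) + 1 ∧
        Exec (.loop 0 (.seq (.pop 0) p)) s
          (update (update s 0 []) 1 (f^[c.length] (s 1))) t := by
  intro c
  induction c with
  | nil =>
    intro s h0 _ _
    refine ⟨1, by simp, (Exec.loop_done h0).cast ?_ rfl⟩
    have : update s 0 [] = s := by rw [← h0]; simp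
    rw [this]; simp
  | cons b c ih =>
    intro s h0 hs hM
    have e1 : (update s 0 (s 0).tail) 1 = s 1 := by
      rw [Function.update_of_ne (by decide)]
    obtain ⟨t1, ht1, he1⟩ := hp (update s 0 (s 0).tail) (fun j hj => by
      rw [Function.update_of_ne (by omega)]; exact hs j hj)
    rw [e1] at he1 ht1
    set s' : St := update (update s 0 (s 0).tail) 1 (f (s 1)) with hs'
    have h0' : s' 0 = c := by
      rw [hs', Function.update_of_ne (by decide), h0]; simp
    have h1' : s' 1 = f (s 1) := by rw [hs']; simp
    obtain ⟨t2, ht2, he2⟩ := ih s' h0' (fun j hj => by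
      rw [hs', Function.update_of_ne (by omega), Function.update_of_ne (by omega)]
      exact hs j hj) (fun i hi => by
      rw [h1', ← Function.iterate_succ_apply]
      exact hM (i + 1) (by simp; omega))
    refine ⟨1 + t1 + t2 + 1, ?_,
      (Exec.loop_step (by simp [h0]) (Exec.seq (Exec.pop 0 s) he1) he2).cast ?_ rfl⟩
    · have : P.eval (s 1).length ≤ P.eval M := poly_mono P (by simpa using hM 0 (by simp))
      have h3 : (b :: c).length * (P.eval M + 2) = c.length * (P.eval M + 2) + (P.eval M + 2) := by
        simp only [List.length_cons]; ring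
      omega
    · rw [h1', ← Function.iterate_succ_apply]
      funext j
      by_cases hj1 : j = 1
      · subst hj1; simp
      · by_cases hj0 : j = 0
        · subst hj0; simp [hs']
        · rw [Function.update_of_ne hj1, Function.update_of_ne hj0, hs',
            Function.update_of_ne hj1, Function.update_of_ne hj0,
            Function.update_of_ne hj1, Function.update_of_ne hj0]

end CIter

open CIter

/-- iteration: the first component of the pair is the (unary) counter, the second one the start -/
theorem PT_iter {f : List Bool → List Bool} (hf : PT f)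
    (hb : ∃ P : Polynomial ℕ, ∀ x : List Bool, ∀ i ≤ (fstP x).length,
      (f^[i] (sndP x)).length ≤ P.eval x.length) :
    PT (fun x => f^[(fstP x).length] (sndP x)) := by
  obtain ⟨B, hB⟩ := hb
  obtain ⟨p, P, hp⟩ := hf.at 1
  obtain ⟨p1, P1, hp1⟩ := PT_fst.at 1
  obtain ⟨p2, P2, hp2⟩ := PT_snd.at 1
  refine ⟨.seq (copy 0 1 2) (.seq p1 (.seq (swap 0 1 2 3) (.seq p2
    (.seq (.loop 0 (.seq (.pop 0) p)) (move 1 0 2))))),
    (9 * Polynomial.X + 2) + (P1 + ((16 * Polynomial.X + 4) + (P2 +
      ((Polynomial.X * (P.comp B + 2) + 1) + (8 * B + 2))))), fun x => ?_⟩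
  have hfx := length_fstP_le x
  -- after copy
  let s1 : St := update (init x) 1 x
  have E1 : Exec (copy 0 1 2) (init x) s1 (9 * x.length + 2) := by
    refine (exec_copy (by decide) (by decide) (by decide) (init x) (init_pos x (by decide))).cast
      ?_ rfl
    rw [init_zero, init_pos x (by decide : 0 < 1), List.append_nil]
  -- after fst on stack 1
  let s2 : St := update (init x) 1 (fstP x)
  obtain ⟨t1, ht1, E2⟩ := hp1 s1 (fun j hj => by
    show update (init x) 1 x j = []
    rw [Function.update_of_ne (by omega)]; exact init_pos x (by omega))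
  have hs11 : s1 1 = x := by simp [s1]
  rw [hs11] at ht1 E2
  have E2' : Exec p1 s1 s2 t1 := E2.cast (by simp [s1, s2]) rfl
  -- after swap
  let s3 : St := update (init (fstP x)) 1 x
  have E3 : Exec (swap 0 1 2 3) s2 s3 (8 * x.length + 8 * (fstP x).length + 4) := by
    refine (exec_swap (by decide) (by decide) (by decide) (by decide) (by decide) (by decide) s2
      ?_ ?_).cast ?_ ?_
    · show update (init x) 1 (fstP x) 2 = []
      rw [Function.update_of_ne (by decide)]; exact init_pos x (by decide)
    · show update (init x) 1 (fstP x) 3 = []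
      rw [Function.update_of_ne (by decide)]; exact init_pos x (by decide)
    · have h0 : s2 0 = x := by simp [s2, Function.update_of_ne]
      have h1 : s2 1 = fstP x := by simp [s2]
      rw [h0, h1]
      funext j
      by_cases hj1 : j = 1
      · subst hj1; simp [s3]
      · by_cases hj0 : j = 0
        · subst hj0; simp [s3]
        · simp only [s2, s3]
          rw [Function.update_of_ne hj1, Function.update_of_ne hj0, Function.update_of_ne hj1,
            Function.update_of_ne hj1, init_pos x (by omega), init_pos (fstP x) (by omega)]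
    · have h0 : s2 0 = x := by simp [s2, Function.update_of_ne]
      have h1 : s2 1 = fstP x := by simp [s2]
      rw [h0, h1]
  -- after snd on stack 1
  let s4 : St := update (init (fstP x)) 1 (sndP x)
  obtain ⟨t2, ht2, E4⟩ := hp2 s3 (fun j hj => by
    show update (init (fstP x)) 1 x j = []
    rw [Function.update_of_ne (by omega)]; exact init_pos _ (by omega))
  have hs31 : s3 1 = x := by simp [s3]
  rw [hs31] at ht2 E4
  have E4' : Exec p2 s3 s4 t2 := E4.cast (by simp [s3, s4]) rfl
  -- the loop
  have hs40 : s4 0 = fstP x := by simp [s4]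
  have hs41 : s4 1 = sndP x := by simp [s4]
  obtain ⟨t3, ht3, E5⟩ := exec_loop hp (B.eval x.length) (fstP x) s4 hs40
    (fun j hj => by
      show update (init (fstP x)) 1 (sndP x) j = []
      rw [Function.update_of_ne (by omega)]; exact init_pos _ (by omega))
    (fun i hi => by rw [hs41]; exact hB x i hi)
  rw [hs41] at E5
  set y := f^[(fstP x).length] (sndP x) with hy
  let s5 : St := update (init []) 1 y
  have E5' : Exec (.loop 0 (.seq (.pop 0) p)) s4 s5 t3 := by
    refine E5.cast ?_ rfl
    funext j
    by_cases hj1 : j = 1
    · subst hj1; simp [s5]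
    · by_cases hj0 : j = 0
      · subst hj0; simp [s5]
      · simp only [s4, s5]
        rw [Function.update_of_ne hj1, Function.update_of_ne hj0, Function.update_of_ne hj1,
          Function.update_of_ne hj1, init_pos _ (by omega), init_pos _ (by omega)]
  have hs51 : s5 1 = y := by simp [s5]
  have hs50 : s5 0 = [] := by simp [s5, Function.update_of_ne]
  have E6 : Exec (move 1 0 2) s5 (init y) (8 * y.length + 2) := by
    refine (exec_move (by decide) (by decide) (by decide) s5 ?_).cast ?_ ?_
    · show update (init []) 1 y 2 = []
      rw [Function.update_of_ne (by decide)]; exact init_pos _ (by decide)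
    · rw [hs51, hs50, List.append_nil]
      funext j
      by_cases hj0 : j = 0
      · subst hj0; simp
      · rw [Function.update_of_ne hj0, init_pos _ (by omega)]
        by_cases hj1 : j = 1
        · subst hj1; simp
        · rw [Function.update_of_ne hj1]
          simp only [s5]
          rw [Function.update_of_ne hj1, init_pos _ (by omega)]
    · rw [hs51]
  have hyB : y.length ≤ B.eval x.length := hB x _ le_rfl
  refine ⟨_, ?_, Exec.seq E1 (Exec.seq E2' (Exec.seq E3 (Exec.seq E4' (Exec.seq E5' E6))))⟩
  have hmul : (fstP x).length * (P.eval (B.eval x.length) + 2) ≤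
      x.length * (P.eval (B.eval x.length) + 2) := Nat.mul_le_mul_right _ hfx
  have hev : ((9 * Polynomial.X + 2) + (P1 + ((16 * Polynomial.X + 4) + (P2 +
      ((Polynomial.X * (P.comp B + 2) + 1) + (8 * B + 2))))) : Polynomial ℕ).eval x.length =
      (9 * x.length + 2) + (P1.eval x.length + ((16 * x.length + 4) + (P2.eval x.length +
      ((x.length * (P.eval (B.eval x.length) + 2) + 1) + (8 * B.eval x.length + 2))))) := by
    simp [Polynomial.eval_comp]
  rw [hev]
  omega

end Crest.Agent.PT
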