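import Crest.Agent.PT.Macros

set_option autoImplicit false

namespace Crest.Agent.PT

open Function (update)

/-- pop every symbol `c` of stack `i` and push `c`, then `true` onto stack `j` -/
def pairRev (i j : ℕ) : Prog :=
  .loop i (.ite i .skip
    (.seq (.push j false) (.seq (.push j true) (.pop i)))
    (.seq (.push j true) (.seq (.push j true) (.pop i))))

theorem exec_pairRev {i j : ℕ} (hij : i ≠ j) (s : St) :
    Exec (pairRev i j) s
      (update (update s i []) j (((s i).reverse.flatMap fun c => [true, c]) ++ s j))
      (5 * (s i).length + 1) := by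
  generalize hl : s i = l
  induction l generalizing s with
  | nil =>
    refine (Exec.loop_done hl).cast ?_ (by simp)
    have : update s i [] = s := by rw [← hl]; simp
    rw [this]; simp
  | cons c l ih =>
    have key : Exec (.ite i .skip
        (.seq (.push j false) (.seq (.push j true) (.pop i)))
        (.seq (.push j true) (.seq (.push j true) (.pop i))))
        s (update (update s j (true :: c :: s j)) i l) 4 := by
      have hp : ∀ b, Exec (.seq (.push j b) (.seq (.push j true) (.pop i))) s
          (update (update s j (true :: b :: s j)) i l) 3 := by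
        intro b
        refine (Exec.seq (Exec.push j b s) (Exec.seq (Exec.push j true _) (Exec.pop i _))).cast
          ?_ rfl
        simp [Function.update_of_ne hij, hl]
      cases c
      · exact Exec.ite_false (by simp [hl]) (hp false)
      · exact Exec.ite_true (by simp [hl]) (hp true)
    have h1 := ih (update (update s j (true :: c :: s j)) i l) (by simp)
    refine (Exec.loop_step (by simp [hl]) key h1).cast ?_ ?_
    · funext x
      by_cases hx : x = j
      · subst hx; simp [Function.update_of_ne hij.symm]
      · by_cases hx' : x = i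
        · subst hx'; simp [Function.update_of_ne hij]
        · simp [Function.update_of_ne hx, Function.update_of_ne hx']
    · simp only [List.length_cons]; ring

theorem PT_pair {f g : List Bool → List Bool} (hf : PT f) (hg : PT g) :
    PT (fun x => pr (f x) (g x)) := by
  obtain ⟨F, hF⟩ := PT_size hf
  obtain ⟨G, hG⟩ := PT_size hg
  obtain ⟨p, P, hp⟩ := (hf.at 1).run
  obtain ⟨q, Q, hq⟩ := (hg.at 1).run
  refine PT.of_at ?_
  -- explicit intermediate states
  let S : St → List Bool → List Bool → List Bool → St := fun s a b c =>
    update (update (update s 0 a) 1 b) 2 c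
  refine ⟨.seq (copy 0 1 2) (.seq p (.seq (swap 0 1 2 3) (.seq q (.seq (.push 1 false)
    (.seq (moveRev 0 2) (.seq (pairRev 2 1) (move 1 0 2))))))),
    9 * Polynomial.X + P + 8 * F + 8 * Polynomial.X + Q + 4 * F + 5 * F
      + 8 * (2 * F + G + 1) + Polynomial.C 20, fun s hs => ?_⟩
  have h1 : s 1 = [] := hs 1 (by omega)
  have h2 : s 2 = [] := hs 2 (by omega)
  have h3 : s 3 = [] := hs 3 (by omega)
  set x := s 0 with hx
  -- states
  have eS : ∀ a b c, (S s a b c) 0 = a ∧ (S s a b c) 1 = b ∧ (S s a b c) 2 = c
      ∧ ∀ j, 2 < j → (S s a b c) j = [] := by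
    intro a b c
    refine ⟨by simp [S], by simp [S], by simp [S], fun j hj => ?_⟩
    simp only [S]
    rw [Function.update_of_ne (by omega), Function.update_of_ne (by omega),
      Function.update_of_ne (by omega), hs j (by omega)]
  have hext : ∀ (s' : St) a b c, s' 0 = a → s' 1 = b → s' 2 = c → (∀ j, 2 < j → s' j = []) →
      s' = S s a b c := by
    intro s' a b c ha hb hc hr
    funext j
    rcases lt_or_ge 2 j with hj | hj
    · rw [hr j hj, (eS a b c).2.2.2 j hj]
    · interval_cases j
      · rw [ha, (eS a b c).1]
      · rw [hb, (eS a b c).2.1]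
      · rw [hc, (eS a b c).2.2.1]
  -- step 1: copy
  have e1 : Exec (copy 0 1 2) s (S s x x []) (9 * x.length + 2) := by
    refine (exec_copy (by omega) (by omega) (by omega) s h2).cast ?_ rfl
    refine hext _ _ _ _ ?_ ?_ ?_ ?_
    · simp [hx]
    · simp [h1, hx]
    · simp [h2]
    · intro j hj
      rw [Function.update_of_ne (by omega), hs j (by omega)]
  -- step 2: run f at 1
  obtain ⟨t2, ht2, e2⟩ := hp (S s x x []) (fun j hj => by
      rcases Nat.lt_or_ge 2 j with h | h
      · exact (eS _ _ _).2.2.2 j h
      · have : j = 2 := by omega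
        subst this; exact (eS _ _ _).2.2.1) (S s x (f x) [])
      (by
        symm
        refine hext _ _ _ _ ?_ ?_ ?_ ?_
        · rw [Function.update_of_ne (by omega), (eS _ _ _).1]
        · simp [S]
        · rw [Function.update_of_ne (by omega), (eS _ _ _).2.2.1]
        · intro j hj
          rw [Function.update_of_ne (by omega), (eS _ _ _).2.2.2 j hj])
      x.length (by rw [(eS x x []).2.1])
  -- step 3: swap
  have e3 : Exec (swap 0 1 2 3) (S s x (f x) []) (S s (f x) x [])
      (8 * x.length + 8 * (f x).length + 4) := by
    refine (exec_swap (by omega) (by omega) (by omega) (by omega) (by omega) (by omega) _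
      (eS _ _ _).2.2.1 ((eS _ _ _).2.2.2 3 (by omega))).cast ?_ ?_
    · refine hext _ _ _ _ ?_ ?_ ?_ ?_
      · rw [Function.update_of_ne (by omega), Function.update_self, (eS _ _ _).2.1]
      · rw [Function.update_self, (eS _ _ _).1]
      · rw [Function.update_of_ne (by omega), Function.update_of_ne (by omega), (eS _ _ _).2.2.1]
      · intro j hj
        rw [Function.update_of_ne (by omega), Function.update_of_ne (by omega),
          (eS _ _ _).2.2.2 j hj]
    · rw [(eS _ _ _).1, (eS _ _ _).2.1]
  -- step 4: run g at 1
  obtain ⟨t4, ht4, e4⟩ := hq (S s (f x) x []) (fun j hj => by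
      rcases Nat.lt_or_ge 2 j with h | h
      · exact (eS _ _ _).2.2.2 j h
      · have : j = 2 := by omega
        subst this; exact (eS _ _ _).2.2.1) (S s (f x) (g x) [])
      (by
        symm
        refine hext _ _ _ _ ?_ ?_ ?_ ?_
        · rw [Function.update_of_ne (by omega), (eS _ _ _).1]
        · simp [S]
        · rw [Function.update_of_ne (by omega), (eS _ _ _).2.2.1]
        · intro j hj
          rw [Function.update_of_ne (by omega), (eS _ _ _).2.2.2 j hj])
      x.length (by rw [(eS (f x) x []).2.1])
  -- step 5: push false
  have e5 : Exec (.push 1 false) (S s (f x) (g x) []) (S s (f x) (false :: g x) []) 1 := by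
    refine (Exec.push 1 false _).cast ?_ rfl
    refine hext _ _ _ _ ?_ ?_ ?_ ?_
    · rw [Function.update_of_ne (by omega), (eS _ _ _).1]
    · rw [Function.update_self, (eS _ _ _).2.1]
    · rw [Function.update_of_ne (by omega), (eS _ _ _).2.2.1]
    · intro j hj
      rw [Function.update_of_ne (by omega), (eS _ _ _).2.2.2 j hj]
  -- step 6: moveRev 0 2
  have e6 : Exec (moveRev 0 2) (S s (f x) (false :: g x) []) (S s [] (false :: g x) (f x).reverse)
      (4 * (f x).length + 1) := by
    refine (exec_moveRev (by omega) _).cast ?_ ?_
    · refine hext _ _ _ _ ?_ ?_ ?_ ?_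
      · rw [Function.update_of_ne (by omega), Function.update_self]
      · rw [Function.update_of_ne (by omega), Function.update_of_ne (by omega), (eS _ _ _).2.1]
      · rw [Function.update_self, (eS _ _ _).1, (eS _ _ _).2.2.1, List.append_nil]
      · intro j hj
        rw [Function.update_of_ne (by omega), Function.update_of_ne (by omega),
          (eS _ _ _).2.2.2 j hj]
    · rw [(eS _ _ _).1]
  -- step 7: pairRev 2 1
  have e7 : Exec (pairRev 2 1) (S s [] (false :: g x) (f x).reverse)
      (S s [] (pr (f x) (g x)) []) (5 * (f x).length + 1) := by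
    refine (exec_pairRev (by omega) _).cast ?_ ?_
    · refine hext _ _ _ _ ?_ ?_ ?_ ?_
      · rw [Function.update_of_ne (by omega), Function.update_of_ne (by omega), (eS _ _ _).1]
      · rw [Function.update_self, (eS _ _ _).2.2.1, (eS _ _ _).2.1, List.reverse_reverse]; rfl
      · rw [Function.update_of_ne (by omega), Function.update_self]
      · intro j hj
        rw [Function.update_of_ne (by omega), Function.update_of_ne (by omega),
          (eS _ _ _).2.2.2 j hj]
    · rw [(eS _ _ _).2.2.1, List.length_reverse]
  -- step 8: move 1 0 2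
  have e8 : Exec (move 1 0 2) (S s [] (pr (f x) (g x)) [])
      (S s (pr (f x) (g x)) [] []) (8 * (pr (f x) (g x)).length + 2) := by
    refine (exec_move (by omega) (by omega) (by omega) _ (eS _ _ _).2.2.1).cast ?_ ?_
    · refine hext _ _ _ _ ?_ ?_ ?_ ?_
      · rw [Function.update_self, (eS _ _ _).2.1, (eS _ _ _).1, List.append_nil]
      · rw [Function.update_of_ne (by omega), Function.update_self]
      · rw [Function.update_of_ne (by omega), Function.update_of_ne (by omega), (eS _ _ _).2.2.1]
      · intro j hj
        rw [Function.update_of_ne (by omega), Function.update_of_ne (by omega),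
          (eS _ _ _).2.2.2 j hj]
    · rw [(eS _ _ _).2.1]
  have efin : S s (pr (f x) (g x)) [] [] = update s 0 (pr (f x) (g x)) := by
    symm
    refine hext _ _ _ _ ?_ ?_ ?_ ?_
    · rw [Function.update_self]
    · rw [Function.update_of_ne (by omega), h1]
    · rw [Function.update_of_ne (by omega), h2]
    · intro j hj
      rw [Function.update_of_ne (by omega), hs j (by omega)]
  refine ⟨_, ?_, (Exec.seq e1 (Exec.seq e2 (Exec.seq e3 (Exec.seq e4 (Exec.seq e5
    (Exec.seq e6 (Exec.seq e7 e8))))))).cast efin rfl⟩
  have hFx := hF x
  have hGx := hG x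
  simp only [Polynomial.eval_add, Polynomial.eval_mul, Polynomial.eval_X, Polynomial.eval_C,
    Polynomial.eval_ofNat, Polynomial.eval_one, length_pr]
  omega

end Crest.Agent.PT
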