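import Crest.Agent.PT.Defs

set_option autoImplicit false

namespace Crest.Agent.PT

namespace Comp

open Turing

/-- labels of the compiled program -/
def Lab : Prog → Type
  | .skip => Unit
  | .push _ _ => Unit
  | .pop _ => Unit
  | .seq p q => Lab p ⊕ Lab q
  | .ite _ p q r => Option (Lab p ⊕ (Lab q ⊕ Lab r))
  | .loop _ p => Option (Lab p)

@[reducible] def labFin : (p : Prog) → Fintype (Lab p)
  | .skip => inferInstanceAs (Fintype Unit)
  | .push _ _ => inferInstanceAs (Fintype Unit)
  | .pop _ => inferInstanceAs (Fintype Unit)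
  | .seq p q =>
    haveI := labFin p
    haveI := labFin q
    inferInstanceAs (Fintype (Lab p ⊕ Lab q))
  | .ite _ p q r =>
    haveI := labFin p
    haveI := labFin q
    haveI := labFin r
    inferInstanceAs (Fintype (Option (Lab p ⊕ (Lab q ⊕ Lab r))))
  | .loop _ p =>
    haveI := labFin p
    inferInstanceAs (Fintype (Option (Lab p)))

/-- entry label -/
def start : (p : Prog) → Lab p
  | .skip => ()
  | .push _ _ => ()
  | .pop _ => ()
  | .seq p _ => Sum.inl (start p)
  | .ite _ _ _ _ => none
  | .loop _ _ => none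

/-- all indices are at most `k` -/
def Bd (k : ℕ) : Prog → Prop
  | .skip => True
  | .push i _ => i ≤ k
  | .pop i => i ≤ k
  | .seq p q => Bd k p ∧ Bd k q
  | .ite i p q r => i ≤ k ∧ Bd k p ∧ Bd k q ∧ Bd k r
  | .loop i p => i ≤ k ∧ Bd k p

def mx : Prog → ℕ
  | .skip => 0
  | .push i _ => i
  | .pop i => i
  | .seq p q => max (mx p) (mx q)
  | .ite i p q r => max i (max (mx p) (max (mx q) (mx r)))
  | .loop i p => max i (mx p)

theorem bd_of_le {k : ℕ} : ∀ (p : Prog), mx p ≤ k → Bd k p
  | .skip, _ => trivial
  | .push _ _, h => h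
  | .pop _, h => h
  | .seq p q, h => by
    simp only [mx, max_le_iff] at h
    exact ⟨bd_of_le p h.1, bd_of_le q h.2⟩
  | .ite i p q r, h => by
    simp only [mx, max_le_iff] at h
    exact ⟨h.1, bd_of_le p h.2.1, bd_of_le q h.2.2.1, bd_of_le r h.2.2.2⟩
  | .loop i p, h => by
    simp only [mx, max_le_iff] at h
    exact ⟨h.1, bd_of_le p h.2⟩

/-- stack index -/
def ix (k i : ℕ) : Fin (k + 1) := ⟨min i k, by omega⟩

/-- restriction of the state to the stacks of the machine -/
def tk (k : ℕ) (s : St) : Fin (k + 1) → List Bool := fun j => s j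

theorem tk_ix {k i : ℕ} (h : i ≤ k) (s : St) : tk k s (ix k i) = s i := by
  simp [tk, ix, h]

theorem tk_update {k i : ℕ} (h : i ≤ k) (s : St) (x : List Bool) :
    tk k (Function.update s i x) = Function.update (tk k s) (ix k i) x := by
  funext j
  by_cases hj : j = ix k i
  · subst hj
    simp [tk, ix, h]
  · have : (j : ℕ) ≠ i := by
      intro e
      apply hj
      apply Fin.ext
      simp [ix, e, h]
    simp [tk, Function.update_of_ne hj, Function.update_of_ne this]

abbrev S (k : ℕ) (L : Type) : Type := TM2.Stmt (K := Fin (k + 1)) (fun _ => Bool) L (Option Bool)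

/-- code of a program: statements at its labels, `e` embeds the labels, `x` is the exit -/
def code (k : ℕ) : (p : Prog) → {L : Type} → (Lab p → L) → L → Lab p → S k L
  | .skip, _, _, x, _ => .goto fun _ => x
  | .push i b, _, _, x, _ => .push (ix k i) (fun _ => b) (.goto fun _ => x)
  | .pop i, _, _, x, _ => .pop (ix k i) (fun v _ => v) (.goto fun _ => x)
  | .seq p q, _, e, x, l =>
    match l with
    | Sum.inl l => code k p (fun l => e (Sum.inl l)) (e (Sum.inr (start q))) l
    | Sum.inr l => code k q (fun l => e (Sum.inr l)) x l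
  | .ite i p q r, _, e, x, l =>
    match l with
    | none => .peek (ix k i) (fun _ o => o) (.goto fun v =>
        match v with
        | none => e (some (Sum.inl (start p)))
        | some false => e (some (Sum.inr (Sum.inl (start q))))
        | some true => e (some (Sum.inr (Sum.inr (start r)))))
    | some (Sum.inl l) => code k p (fun l => e (some (Sum.inl l))) x l
    | some (Sum.inr (Sum.inl l)) => code k q (fun l => e (some (Sum.inr (Sum.inl l)))) x l
    | some (Sum.inr (Sum.inr l)) => code k r (fun l => e (some (Sum.inr (Sum.inr l)))) x l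
  | .loop i p, _, e, x, l =>
    match l with
    | none => .peek (ix k i) (fun _ o => o) (.goto fun v =>
        match v with
        | none => x
        | some _ => e (some (start p)))
    | some l => code k p (fun l => e (some l)) (e none) l

abbrev Cf (k : ℕ) (L : Type) : Type := TM2.Cfg (K := Fin (k + 1)) (fun _ => Bool) L (Option Bool)

/-- `t` steps of the machine -/
def Run {k : ℕ} {L : Type} (m : L → S k L) (t : ℕ) (a b : Cf k L) : Prop :=
  (flip bind (TM2.step m))^[t] (some a) = some b

theorem iter_trans {α : Type} (F : α → α) {t t' : ℕ} {a b c : α} (h : F^[t] a = b)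
    (h' : F^[t'] b = c) : F^[t + t'] a = c := by
  rw [Nat.add_comm, Function.iterate_add_apply, h, h']

theorem Run.trans {k : ℕ} {L : Type} {m : L → S k L} {t t' : ℕ} {a b c : Cf k L}
    (h : Run m t a b) (h' : Run m t' b c) : Run m (t + t') a c :=
  iter_trans _ h h'

theorem Run.one {k : ℕ} {L : Type} {m : L → S k L} {l : L} {v : Option Bool}
    {s : Fin (k + 1) → List Bool} {b : Cf k L} (h : TM2.stepAux (m l) v s = b) :
    Run m 1 ⟨some l, v, s⟩ b := by
  subst h
  rfl

theorem sim {k : ℕ} {p : Prog} {s s' : St} {t : ℕ} (h : Exec p s s' t) :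
    Bd k p → ∀ {L : Type} (m : L → S k L) (e : Lab p → L) (x : L),
      (∀ l, m (e l) = code k p e x l) → ∀ v : Option Bool, ∃ v' : Option Bool,
        Run m t ⟨some (e (start p)), v, tk k s⟩ ⟨some x, v', tk k s'⟩ := by
  induction h with
  | skip s =>
    intro _ L m e x hm v
    refine ⟨v, Run.one ?_⟩
    rw [hm]
    rfl
  | push i b s =>
    intro hb L m e x hm v
    refine ⟨v, Run.one ?_⟩
    rw [hm]
    simp only [code, TM2.stepAux]
    rw [tk_update hb, tk_ix hb]
  | pop i s =>
    intro hb L m e x hm v
    refine ⟨v, Run.one ?_⟩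
    rw [hm]
    simp only [code, TM2.stepAux]
    rw [tk_update hb, tk_ix hb]
  | @seq p q s s' s'' t t' _ _ ih1 ih2 =>
    intro hb L m e x hm v
    obtain ⟨v1, h1⟩ := ih1 hb.1 m (fun l => e (Sum.inl l)) (e (Sum.inr (start q)))
      (fun l => hm (Sum.inl l)) v
    obtain ⟨v2, h2⟩ := ih2 hb.2 m (fun l => e (Sum.inr l)) x (fun l => hm (Sum.inr l)) v1
    exact ⟨v2, h1.trans h2⟩
  | @ite_nil i p q r s s' t hi _ ih =>
    intro hb L m e x hm v
    obtain ⟨v1, h1⟩ := ih hb.2.1 m (fun l => e (some (Sum.inl l))) x
      (fun l => hm (some (Sum.inl l))) none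
    refine ⟨v1, ?_⟩
    rw [add_comm]
    refine Run.trans (Run.one ?_) h1
    change TM2.stepAux (m (e none)) v (tk k s) = _
    rw [hm]
    simp only [code, TM2.stepAux]
    rw [tk_ix hb.1, hi]
    rfl
  | @ite_false i p q r s s' t hi _ ih =>
    intro hb L m e x hm v
    obtain ⟨v1, h1⟩ := ih hb.2.2.1 m (fun l => e (some (Sum.inr (Sum.inl l)))) x
      (fun l => hm (some (Sum.inr (Sum.inl l)))) (some false)
    refine ⟨v1, ?_⟩
    rw [add_comm]
    refine Run.trans (Run.one ?_) h1
    change TM2.stepAux (m (e none)) v (tk k s) = _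
    rw [hm]
    simp only [code, TM2.stepAux]
    rw [tk_ix hb.1, hi]
  | @ite_true i p q r s s' t hi _ ih =>
    intro hb L m e x hm v
    obtain ⟨v1, h1⟩ := ih hb.2.2.2 m (fun l => e (some (Sum.inr (Sum.inr l)))) x
      (fun l => hm (some (Sum.inr (Sum.inr l)))) (some true)
    refine ⟨v1, ?_⟩
    rw [add_comm]
    refine Run.trans (Run.one ?_) h1
    change TM2.stepAux (m (e none)) v (tk k s) = _
    rw [hm]
    simp only [code, TM2.stepAux]
    rw [tk_ix hb.1, hi]
  | @loop_done i p s hi =>
    intro hb L m e x hm v
    refine ⟨none, Run.one ?_⟩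
    change TM2.stepAux (m (e none)) v (tk k s) = _
    rw [hm]
    simp only [code, TM2.stepAux]
    rw [tk_ix hb.1, hi]
    rfl
  | @loop_step i p s s' s'' t t' hi _ _ ih1 ih2 =>
    intro hb L m e x hm v
    obtain ⟨c, hc⟩ : ∃ c, (s i).head? = some c := by
      cases hs : s i with
      | nil => exact absurd hs hi
      | cons c l => exact ⟨c, rfl⟩
    obtain ⟨v1, h1⟩ := ih1 hb.2 m (fun l => e (some l)) (e none)
      (fun l => hm (some l)) (some c)
    obtain ⟨v2, h2⟩ := ih2 hb m e x hm v1
    refine ⟨v2, ?_⟩
    rw [add_comm]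
    refine Run.trans (Run.one ?_) (h1.trans h2)
    change TM2.stepAux (m (e none)) v (tk k s) = _
    rw [hm]
    simp only [code, TM2.stepAux]
    rw [tk_ix hb.1, hc]

/-- the whole machine -/
def machine (p : Prog) : FinTM2 :=
  haveI := labFin p
  { K := Fin (mx p + 1)
    k₀ := 0
    k₁ := 0
    Γ := fun _ => Bool
    Λ := Option (Lab p)
    main := some (start p)
    σ := Option Bool
    initialState := none
    m := fun l => match l with
      | none => .load (fun _ => none) .halt
      | some l => code (mx p) p (L := Option (Lab p)) some none l }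

theorem init_eq (p : Prog) (x : List Bool) :
    initList (machine p) x =
      (⟨some (some (start p)), none, tk (mx p) (init x)⟩ : Cf (mx p) (Option (Lab p))) := by
  refine congrArg (fun S => (⟨some (some (start p)), none, S⟩ : Cf (mx p) (Option (Lab p)))) ?_
  refine funext fun (j : Fin (mx p + 1)) => ?_
  change (@dite (List Bool) (j = (0 : Fin (mx p + 1))) (instDecidableEqFin _ j 0) _ _) = _
  split
  · next h =>
    have h' : j = (0 : Fin (mx p + 1)) := h
    subst h'
    simp only [tk, init]
    rfl
  · next h =>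
    have h' : (j : ℕ) ≠ 0 := fun e => h (Fin.ext e)
    simp only [tk, init, if_neg h']
    rfl

theorem halt_eq (p : Prog) (x : List Bool) :
    haltList (machine p) x =
      (⟨none, none, tk (mx p) (init x)⟩ : Cf (mx p) (Option (Lab p))) := by
  refine congrArg (fun S => (⟨none, none, S⟩ : Cf (mx p) (Option (Lab p)))) ?_
  refine funext fun (j : Fin (mx p + 1)) => ?_
  change (@dite (List Bool) (j = (0 : Fin (mx p + 1))) (instDecidableEqFin _ j 0) _ _) = _
  split
  · next h =>
    have h' : j = (0 : Fin (mx p + 1)) := h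
    subst h'
    simp only [tk, init]
    rfl
  · next h =>
    have h' : (j : ℕ) ≠ 0 := fun e => h (Fin.ext e)
    simp only [tk, init, if_neg h']
    rfl

end Comp

open Turing in
/-- compilation of structured programs to the library's machine model -/
theorem polyTime_of_PT {f : List Bool → List Bool} (h : PT f) : Crest.Complexity.PolyTime f := by
  obtain ⟨p, P, hp⟩ := h
  have key : ∀ x : List Bool, ∃ n ≤ (P + 1).eval x.length,
      (flip bind (Comp.machine p).step)^[n] (some (initList (Comp.machine p) x)) =
        some (haltList (Comp.machine p) (f x)) := by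
    intro x
    obtain ⟨t, ht, hE⟩ := hp x
    refine ⟨t + 1, by simpa using ht, ?_⟩
    obtain ⟨v, hv⟩ := Comp.sim (k := Comp.mx p) hE (Comp.bd_of_le p le_rfl) (Comp.machine p).m
      some none (fun l => rfl) none
    have h2 : Comp.Run (Comp.machine p).m 1
        (⟨some none, v, Comp.tk (Comp.mx p) (init (f x))⟩ :
          Comp.Cf (Comp.mx p) (Option (Comp.Lab p)))
        ⟨none, none, Comp.tk (Comp.mx p) (init (f x))⟩ := Comp.Run.one rfl
    have h3 := hv.trans h2
    rw [Comp.init_eq, Comp.halt_eq]
    exact h3
  refine ⟨{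
    tm := Comp.machine p
    inputAlphabet := Equiv.refl Bool
    outputAlphabet := Equiv.refl Bool
    time := P + 1
    outputsFun := fun x => ?_ }⟩
  have h1 : List.map (Equiv.refl Bool).invFun
      ((Computability.encodingList Bool).encode x) = x := by
    simp [Computability.encodingList]
  have h2 : List.map (Equiv.refl Bool).invFun
      ((Computability.encodingList Bool).encode (f x)) = f x := by
    simp [Computability.encodingList]
  have h3 : ((Computability.encodingList Bool).encode x) = x := rfl
  have h4 : TM2OutputsInTime (Comp.machine p) x (some (f x)) ((P + 1).eval x.length) :=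
    { steps := (key x).choose
      evals_in_steps := (key x).choose_spec.2
      steps_le_m := (key x).choose_spec.1 }
  have h5 : ∀ (y z : List Bool) (n : ℕ), y = x → z = f x → n = x.length →
      TM2OutputsInTime (Comp.machine p) y (some z) ((P + 1).eval n) := by
    rintro _ _ _ rfl rfl rfl
    exact h4
  exact h5 _ _ _ h1 h2 rfl

end Crest.Agent.PT
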