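import Crest.Prelude.Def_Complexity
import Crest.Prelude.Def_BitEnc

/-!
Poly-time toolkit (row 287): structured stack programs, the class `PT` of bit-string functions
computed by them in polynomial time, pairing, and the typed layer `Enc` / `PF`.
-/

set_option autoImplicit false

namespace Crest.Agent.PT

/-- Structured stack programs; stacks are indexed by `ℕ`, the alphabet is `Bool`. -/
inductive Prog : Type
  | skip : Prog
  | push (i : ℕ) (b : Bool) : Prog
  | pop (i : ℕ) : Prog
  | seq (p q : Prog) : Prog
  /-- peek at the top of stack `i`: empty → `p`, `false` → `q`, `true` → `r` -/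
  | ite (i : ℕ) (p q r : Prog) : Prog
  /-- while stack `i` is nonempty do `p` -/
  | loop (i : ℕ) (p : Prog) : Prog

/-- States: all stacks. -/
abbrev St := ℕ → List Bool

/-- Big-step semantics with step count. -/
inductive Exec : Prog → St → St → ℕ → Prop
  | skip (s : St) : Exec .skip s s 1
  | push (i : ℕ) (b : Bool) (s : St) : Exec (.push i b) s (Function.update s i (b :: s i)) 1
  | pop (i : ℕ) (s : St) : Exec (.pop i) s (Function.update s i (s i).tail) 1
  | seq {p q : Prog} {s s' s'' : St} {t t' : ℕ} :
      Exec p s s' t → Exec q s' s'' t' → Exec (.seq p q) s s'' (t + t')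
  | ite_nil {i : ℕ} {p q r : Prog} {s s' : St} {t : ℕ} :
      s i = [] → Exec p s s' t → Exec (.ite i p q r) s s' (t + 1)
  | ite_false {i : ℕ} {p q r : Prog} {s s' : St} {t : ℕ} :
      (s i).head? = some false → Exec q s s' t → Exec (.ite i p q r) s s' (t + 1)
  | ite_true {i : ℕ} {p q r : Prog} {s s' : St} {t : ℕ} :
      (s i).head? = some true → Exec r s s' t → Exec (.ite i p q r) s s' (t + 1)
  | loop_done {i : ℕ} {p : Prog} {s : St} : s i = [] → Exec (.loop i p) s s 1
  | loop_step {i : ℕ} {p : Prog} {s s' s'' : St} {t t' : ℕ} :
      s i ≠ [] → Exec p s s' t → Exec (.loop i p) s' s'' t' → Exec (.loop i p) s s'' (t + t' + 1)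

/-- Only stack `0` is nonempty. -/
def init (x : List Bool) : St := fun i => if i = 0 then x else []

/-- `f` is computed by a structured program in polynomial time. -/
def PT (f : List Bool → List Bool) : Prop :=
  ∃ (p : Prog) (P : Polynomial ℕ), ∀ x : List Bool,
    ∃ t : ℕ, t ≤ P.eval x.length ∧ Exec p (init x) (init (f x)) t

/-- `f` can be run in place on stack `k`, provided all stacks above `k` are empty. -/
def PTat (k : ℕ) (f : List Bool → List Bool) : Prop :=
  ∃ (p : Prog) (P : Polynomial ℕ), ∀ s : St, (∀ j, k < j → s j = []) →
    ∃ t : ℕ, t ≤ P.eval (s k).length ∧ Exec p s (Function.update s k (f (s k))) t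

/-- Pairing of bit strings. -/
def pr (a b : List Bool) : List Bool := (a.flatMap fun c => [true, c]) ++ false :: b

def fstP : List Bool → List Bool
  | true :: c :: l => c :: fstP l
  | _ => []

def sndP : List Bool → List Bool
  | true :: _ :: l => sndP l
  | false :: l => l
  | _ => []

@[simp] theorem pr_nil (b : List Bool) : pr [] b = false :: b := rfl
@[simp] theorem pr_cons (c : Bool) (a b : List Bool) : pr (c :: a) b = true :: c :: pr a b := rfl

@[simp] theorem fstP_pr (a b : List Bool) : fstP (pr a b) = a := by
  induction a with
  | nil => simp [fstP]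
  | cons c a ih => simp [fstP, ih]

@[simp] theorem sndP_pr (a b : List Bool) : sndP (pr a b) = b := by
  induction a with
  | nil => simp [sndP]
  | cons c a ih => simp [sndP, ih]

@[simp] theorem length_pr (a b : List Bool) : (pr a b).length = 2 * a.length + 1 + b.length := by
  induction a with
  | nil => simp; omega
  | cons c a ih => simp [ih]; omega

/-! ### Typed layer -/

/-- Types with an injective bit-string encoding. -/
class Enc (α : Type) where
  enc : α → List Bool
  inj : Function.Injective enc

export Enc (enc)

/-- Bit strings as a type of their own (encoded by themselves). -/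
def Bits : Type := List Bool

instance : DecidableEq Bits := inferInstanceAs (DecidableEq (List Bool))
instance : Inhabited Bits := ⟨([] : List Bool)⟩
instance : Enc Bits := ⟨fun x => x, fun _ _ h => h⟩
instance : Enc Unit := ⟨fun _ => [], fun _ _ _ => rfl⟩
instance : Enc Bool := ⟨fun b => [b], fun _ _ h => by simpa using h⟩
/-- natural numbers are encoded in UNARY -/
instance : Enc ℕ := ⟨fun n => List.replicate n true, fun a b h => by
  have := congrArg List.length h; simpa using this⟩

theorem pr_inj {a b a' b' : List Bool} (h : pr a b = pr a' b') : a = a' ∧ b = b' := by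
  constructor
  · have := congrArg fstP h; simpa using this
  · have := congrArg sndP h; simpa using this

instance {α β : Type} [Enc α] [Enc β] : Enc (α × β) :=
  ⟨fun p => pr (enc p.1) (enc p.2), fun p q h => by
    obtain ⟨h1, h2⟩ := pr_inj h
    exact Prod.ext (Enc.inj h1) (Enc.inj h2)⟩

instance {α : Type} [Enc α] : Enc (Option α) :=
  ⟨fun o => match o with
    | none => []
    | some a => true :: enc a, fun o o' h => by
    cases o with
    | none => cases o' with
      | none => rfl
      | some a => simp at h
    | some a => cases o' with
      | none => simp at h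
      | some b =>
        simp only [List.cons.injEq, true_and] at h
        rw [Enc.inj h]⟩

/-- encoding of lists: `[]` is empty, `a :: l` is the pair of the codes -/
def encL {α : Type} [Enc α] : List α → List Bool
  | [] => []
  | a :: l => pr (enc a) (encL l)

theorem encL_inj {α : Type} [Enc α] : Function.Injective (encL (α := α)) := by
  intro l
  induction l with
  | nil =>
    intro l' h
    cases l' with
    | nil => rfl
    | cons a l' =>
      have := congrArg List.length h
      simp [encL] at this
      omega
  | cons a l ih =>
    intro l' h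
    cases l' with
    | nil =>
      have := congrArg List.length h
      simp [encL] at this
    | cons a' l' =>
      obtain ⟨h1, h2⟩ := pr_inj h
      rw [Enc.inj h1, ih h2]

instance {α : Type} [Enc α] : Enc (List α) := ⟨encL, encL_inj⟩

@[simp] theorem enc_nil {α : Type} [Enc α] : enc ([] : List α) = [] := rfl
@[simp] theorem enc_cons {α : Type} [Enc α] (a : α) (l : List α) :
    enc (a :: l) = pr (enc a) (enc l) := rfl
@[simp] theorem enc_pair {α β : Type} [Enc α] [Enc β] (a : α) (b : β) :
    enc (a, b) = pr (enc a) (enc b) := rfl
@[simp] theorem enc_none {α : Type} [Enc α] : enc (none : Option α) = [] := rfl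
@[simp] theorem enc_some {α : Type} [Enc α] (a : α) : enc (some a) = true :: enc a := rfl
@[simp] theorem enc_nat (n : ℕ) : enc n = List.replicate n true := rfl
@[simp] theorem enc_bool (b : Bool) : enc b = [b] := rfl
@[simp] theorem enc_unit (u : Unit) : enc u = [] := rfl

/-- size of the code -/
def sz {α : Type} [Enc α] (a : α) : ℕ := (enc a).length

/-- typed polynomial-time function -/
def PF {α β : Type} [Enc α] [Enc β] (f : α → β) : Prop :=
  ∃ g : List Bool → List Bool, PT g ∧ ∀ a : α, g (enc a) = enc (f a)

/-- polynomially bounded size -/
def PB {α β : Type} [Enc α] [Enc β] (f : α → β) : Prop :=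
  ∃ P : Polynomial ℕ, ∀ a : α, sz (f a) ≤ P.eval (sz a)

end Crest.Agent.PT
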