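import Crest.Agent.PT.TFold

set_option autoImplicit false

namespace Crest.Agent.PT

variable {α β γ δ : Type} [Enc α] [Enc β] [Enc γ] [Enc δ]

namespace TEq

theorem PT_congr {f g : List Bool → List Bool} (h : PT f) (e : ∀ x, g x = f x) : PT g := by
  have : g = f := funext e
  rw [this]; exact h

theorem cmp {g f : List Bool → List Bool} (hg : PT g) (hf : PT f) : PT (fun x => g (f x)) :=
  PT_comp hf hg

/-- case distinction on the head of a computed string -/
theorem PT_casesOn {c f g h : List Bool → List Bool} (hc : PT c) (hf : PT f) (hg : PT g)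
    (hh : PT h) :
    PT (fun x => match c x with
      | [] => f x
      | false :: _ => g x
      | true :: _ => h x) := by
  have hk := PT_cases (PT_id) (cmp hg (cmp PT_snd (PT_cons true)))
    (cmp hh (cmp PT_snd (PT_cons true)))
  have h2 := PT_cases (PT_id) (cmp hf PT_tail) (cmp hk PT_tail)
  have h3 := cmp h2 (PT_pair hc PT_id)
  refine PT_congr h3 fun x => ?_
  cases hx : c x with
  | nil => simp
  | cons b l =>
    cases b <;> simp [sndP]

/-- one step of the comparison -/
def eqStep (z : List Bool) : List Bool :=
  match fstP z with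
  | [] => z
  | false :: _ => (match sndP z with
      | [] => z
      | false :: _ => pr (fstP z).tail (sndP z).tail
      | true :: _ => z)
  | true :: _ => (match sndP z with
      | [] => z
      | false :: _ => z
      | true :: _ => pr (fstP z).tail (sndP z).tail)

theorem PT_eqStep : PT eqStep := by
  have hp : PT (fun z => pr (fstP z).tail (sndP z).tail) :=
    PT_pair (cmp PT_tail PT_fst) (cmp PT_tail PT_snd)
  exact PT_casesOn PT_fst PT_id (PT_casesOn PT_snd PT_id hp PT_id)
    (PT_casesOn PT_snd PT_id PT_id hp)

def eqFin (z : List Bool) : List Bool :=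
  match fstP z with
  | [] => (match sndP z with
      | [] => [true]
      | false :: _ => [false]
      | true :: _ => [false])
  | false :: _ => [false]
  | true :: _ => [false]

theorem PT_eqFin : PT eqFin :=
  PT_casesOn PT_fst (PT_casesOn PT_snd (PT_const _) (PT_const _) (PT_const _)) (PT_const _)
    (PT_const _)

theorem len_fst_snd (z : List Bool) : 2 * (fstP z).length + (sndP z).length ≤ z.length := by
  induction z using fstP.induct with
  | case1 c l ih => simp [fstP, sndP]; omega
  | case2 x h =>
    match x, h with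
    | [], _ => simp [fstP, sndP]
    | [true], _ => simp [fstP, sndP]
    | false :: l, _ => simp [fstP, sndP]
    | true :: c :: l, h => exact absurd rfl (h c l)

theorem eqStep_len (z : List Bool) : (eqStep z).length ≤ z.length := by
  have h := len_fst_snd z
  unfold eqStep
  rcases h1 : fstP z with _ | ⟨b, x⟩
  · simp
  · rcases h2 : sndP z with _ | ⟨c, y⟩
    · cases b <;> simp
    · rw [h1, h2] at h
      simp only [List.length_cons] at h
      cases b <;> cases c <;> simp <;> omega

theorem eqStep_iter_len (z : List Bool) (i : ℕ) : (eqStep^[i] z).length ≤ z.length := by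
  induction i with
  | zero => simp
  | succ i ih => rw [Function.iterate_succ_apply']; exact (eqStep_len _).trans ih

theorem eqStep_ne {x y : List Bool} (h : x ≠ y) :
    ∃ x' y', x' ≠ y' ∧ eqStep (pr x y) = pr x' y' := by
  unfold eqStep
  rw [fstP_pr, sndP_pr]
  rcases x with _ | ⟨b, x⟩
  · exact ⟨_, _, h, rfl⟩
  · rcases y with _ | ⟨c, y⟩
    · cases b <;> exact ⟨_, _, h, rfl⟩
    · cases b <;> cases c
      · exact ⟨x, y, fun e => h (by rw [e]), rfl⟩
      · exact ⟨_, _, h, rfl⟩
      · exact ⟨_, _, h, rfl⟩
      · exact ⟨x, y, fun e => h (by rw [e]), rfl⟩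

theorem eqStep_iter_ne {x y : List Bool} (h : x ≠ y) (i : ℕ) :
    ∃ x' y', x' ≠ y' ∧ eqStep^[i] (pr x y) = pr x' y' := by
  induction i with
  | zero => exact ⟨x, y, h, rfl⟩
  | succ i ih =>
    obtain ⟨x', y', h', e⟩ := ih
    rw [Function.iterate_succ_apply', e]
    exact eqStep_ne h'

theorem eqStep_iter_eq (x : List Bool) : eqStep^[x.length] (pr x x) = pr [] [] := by
  induction x with
  | nil => rfl
  | cons b x ih =>
    rw [List.length_cons, Function.iterate_succ_apply]
    have : eqStep (pr (b :: x) (b :: x)) = pr x x := by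
      unfold eqStep
      rw [fstP_pr, sndP_pr]
      cases b <;> rfl
    rw [this, ih]

/-- equality of the two components of a pair -/
def eqP (z : List Bool) : List Bool :=
  eqFin (eqStep^[(fstP z).length] z)

theorem eqP_pr (x y : List Bool) : eqP (pr x y) = [decide (x = y)] := by
  unfold eqP
  rw [fstP_pr]
  by_cases h : x = y
  · subst h
    rw [eqStep_iter_eq]
    simp [eqFin, fstP, sndP]
  · obtain ⟨x', y', h', e⟩ := eqStep_iter_ne h x.length
    rw [e]
    unfold eqFin
    rw [fstP_pr, sndP_pr]
    rcases x' with _ | ⟨b, x'⟩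
    · rcases y' with _ | ⟨c, y'⟩
      · exact absurd rfl h'
      · cases c <;> simp [h]
    · cases b <;> simp [h]

theorem PT_eqP : PT eqP := by
  have h1 : PT (fun x => eqStep^[(fstP x).length] (sndP x)) :=
    PT_iter PT_eqStep ⟨Polynomial.X, fun x i _ => by
      have h1 := eqStep_iter_len (sndP x) i
      have h2 := len_fst_snd x
      simp only [Polynomial.eval_X]
      omega⟩
  have h2 := cmp PT_eqFin (cmp h1 (PT_pair PT_fst PT_id))
  refine PT_congr h2 fun x => ?_
  rw [fstP_pr, sndP_pr]
  rfl

end TEq

/-- equality test (compare the codes bit by bit) -/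
theorem PF.beq [DecidableEq β] {f g : α → β} (hf : PF f) (hg : PF g) :
    PF (fun a => decide (f a = g a)) := by
  obtain ⟨F, hF, eF⟩ := hf
  obtain ⟨G, hG, eG⟩ := hg
  refine ⟨_, TEq.cmp TEq.PT_eqP (PT_pair hF hG), fun a => ?_⟩
  simp only [eF, eG, TEq.eqP_pr, enc_bool]
  congr 1
  rw [decide_eq_decide]
  exact ⟨fun h => Enc.inj h, fun h => by rw [h]⟩

end Crest.Agent.PT
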