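import Crest.Agent.PT.TFold

set_option autoImplicit false

namespace Crest.Agent.PT

variable {α β γ δ : Type} [Enc α] [Enc β] [Enc γ] [Enc δ]

namespace TNat

theorem sz_nat (n : ℕ) : sz n = n := by simp [sz]

theorem length_le_sz (l : List β) : l.length ≤ sz l := by
  induction l with
  | nil => simp
  | cons a l ih => simp only [sz, enc_cons, length_pr, List.length_cons] at ih ⊢; omega

theorem PF_congr {f g : α → β} (h : PF f) (e : ∀ x, g x = f x) : PF g := by
  have : g = f := funext e
  rw [this]; exact h

omit [Enc β] in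
theorem foldl_len (l : List β) (k : ℕ) : l.foldl (fun x _ => x + 1) k = k + l.length := by
  induction l generalizing k with
  | nil => rfl
  | cons a l ih => rw [List.foldl_cons, ih, List.length_cons]; omega

theorem iter_succ (n k : ℕ) : (fun x => x + 1)^[n] k = k + n := by
  induction n with
  | zero => rfl
  | succ n ih => rw [Function.iterate_succ_apply', ih]; omega

theorem iter_pred (n k : ℕ) : (fun x => x - 1)^[n] k = k - n := by
  induction n with
  | zero => rfl
  | succ n ih => rw [Function.iterate_succ_apply', ih]; omega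

end TNat

open TNat

theorem PF.length {l : α → List β} (hl : PF l) : PF (fun a => (l a).length) := by
  obtain ⟨P, hP⟩ := hl.size
  have hf : PF (fun p : α × ℕ × β => p.2.1 + 1) := PF.succ (PF.fst (PF.snd PF.id))
  have h := PF.foldl (f := fun p : α × ℕ × β => p.2.1 + 1) (b := fun _ => 0) hf (PF.const 0) hl
    ⟨P, fun a l' hl' => by
      rw [foldl_len, sz_nat, zero_add]
      exact (hl'.length_le.trans (length_le_sz _)).trans (hP a)⟩
  exact PF_congr h fun a => by rw [foldl_len, zero_add]

theorem PF.add {m n : α → ℕ} (hm : PF m) (hn : PF n) : PF (fun a => m a + n a) := by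
  obtain ⟨P, hP⟩ := hm.size
  obtain ⟨Q, hQ⟩ := hn.size
  have hf : PF (fun p : α × ℕ => p.2 + 1) := PF.succ (PF.snd PF.id)
  have h := PF.iterate (f := fun p : α × ℕ => p.2 + 1) (n := m) (b := n) hf hm hn
    ⟨P + Q, fun a i hi => by
      have h1 := hP a
      have h2 := hQ a
      rw [sz_nat] at h1 h2
      rw [iter_succ, sz_nat, Polynomial.eval_add]
      omega⟩
  exact PF_congr h fun a => by rw [iter_succ, add_comm]

theorem PF.sub {m n : α → ℕ} (hm : PF m) (hn : PF n) : PF (fun a => m a - n a) := by
  obtain ⟨P, hP⟩ := hm.size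
  have hf : PF (fun p : α × ℕ => p.2 - 1) := PF.pred (PF.snd PF.id)
  have h := PF.iterate (f := fun p : α × ℕ => p.2 - 1) (n := n) (b := m) hf hn hm
    ⟨P, fun a i hi => by
      have h1 := hP a
      rw [sz_nat] at h1
      rw [iter_pred, sz_nat]
      omega⟩
  exact PF_congr h fun a => by rw [iter_pred]

theorem PF.le {m n : α → ℕ} (hm : PF m) (hn : PF n) : PF (fun a => decide (m a ≤ n a)) := by
  have h := PF.nat_cases (n := fun a => m a - n a) (f := fun _ => true)
    (g := fun _ : α × ℕ => false) (PF.sub hm hn) (PF.const true) (PF.const false)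
  refine PF_congr h fun a => ?_
  by_cases hle : m a ≤ n a
  · simp [hle]
  · obtain ⟨k, hk⟩ : ∃ k, m a - n a = k + 1 := ⟨m a - n a - 1, by omega⟩
    simp [hle, hk]

theorem PF.lt {m n : α → ℕ} (hm : PF m) (hn : PF n) : PF (fun a => decide (m a < n a)) :=
  PF_congr (PF.le (PF.succ hm) hn) fun a => by
    rw [decide_eq_decide]; exact Nat.lt_iff_add_one_le

theorem PF.max {m n : α → ℕ} (hm : PF m) (hn : PF n) : PF (fun a => Nat.max (m a) (n a)) :=
  PF_congr (PF.add hm (PF.sub hn hm)) fun a => by
    change Max.max (m a) (n a) = _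
    omega

namespace TNat

/-- one step of the construction of `List.range` -/
def rstep (p : ℕ × List ℕ) : ℕ × List ℕ := (p.1 - 1, (p.1 - 1) :: p.2)

theorem rstep_iter (n k : ℕ) : rstep^[k] (n + k, []) =
    (n, (List.range k).map (fun i => n + i)) := by
  induction k generalizing n with
  | zero => simp
  | succ k ih =>
    have : n + (k + 1) = (n + 1) + k := by omega
    rw [Function.iterate_succ_apply', this, ih, rstep]
    simp only [Nat.add_sub_cancel, Prod.mk.injEq, true_and]
    rw [List.range_succ_eq_map]
    simp only [List.map_cons, List.map_map, add_zero, List.cons.injEq, true_and]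
    apply List.map_congr_left
    intro i _
    simp; omega

theorem rstep_sz (n i : ℕ) : ((rstep^[i] (n, [])).1 ≤ n) ∧
    sz (rstep^[i] (n, [])).2 ≤ i * (2 * n + 1) := by
  induction i with
  | zero => simp [sz]
  | succ i ih =>
    rw [Function.iterate_succ_apply']
    obtain ⟨h1, h2⟩ := ih
    generalize rstep^[i] (n, []) = p at *
    simp only [sz, rstep, enc_cons, length_pr, enc_nat, List.length_replicate] at h2 ⊢
    constructor
    · omega
    · have : (i + 1) * (2 * n + 1) = i * (2 * n + 1) + (2 * n + 1) := by ring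
      omega

end TNat

/-- `[0, 1, …, n-1]` (unary numbers) -/
theorem PF.range {n : α → ℕ} (hn : PF n) : PF (fun a => List.range (n a)) := by
  obtain ⟨P, hP⟩ := hn.size
  have hf : PF (fun p : α × (ℕ × List ℕ) => rstep p.2) :=
    PF.pair (PF.pred (PF.fst (PF.snd PF.id)))
      (PF.cons (PF.pred (PF.fst (PF.snd PF.id))) (PF.snd (PF.snd PF.id)))
  have h := PF.iterate (f := fun p : α × (ℕ × List ℕ) => rstep p.2) (n := n)
    (b := fun a => (n a, ([] : List ℕ))) hf hn (PF.pair hn (PF.const []))
    ⟨2 * P + 1 + P * (2 * P + 1), fun a i hi => by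
      have h1 := hP a
      rw [sz_nat] at h1
      obtain ⟨h2, h3⟩ := rstep_sz (n a) i
      change sz (rstep^[i] (n a, [])) ≤ _
      generalize rstep^[i] (n a, []) = p at *
      obtain ⟨u, v⟩ := p
      simp only [sz] at h1
      simp only [sz, enc_pair, length_pr, enc_nat, List.length_replicate] at h2 h3 ⊢
      simp only [Polynomial.eval_add, Polynomial.eval_mul, Polynomial.eval_ofNat,
        Polynomial.eval_one]
      generalize Polynomial.eval (enc a).length P = q at *
      have h4 : i * (2 * n a + 1) ≤ q * (2 * q + 1) :=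
        Nat.mul_le_mul (hi.trans h1) (by omega)
      omega⟩
  refine PF_congr (PF.snd h) fun a => ?_
  change _ = (rstep^[n a] (n a, [])).2
  have := rstep_iter 0 (n a)
  rw [zero_add] at this
  rw [this]
  simp

end Crest.Agent.PT
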