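import Crest.Agent.PT.TFold
import Crest.Agent.PT.TEq
import Crest.Agent.PT.TNat

set_option autoImplicit false
set_option linter.unusedSectionVars false

namespace Crest.Agent.PT

variable {α β γ δ : Type} [Enc α] [Enc β] [Enc γ] [Enc δ]

namespace TLib

theorem congr {f g : α → β} (h : PF f) (e : ∀ a, g a = f a) : PF g := by
  have : g = f := funext e
  rw [this]; exact h

@[simp] theorem sz_nil : sz ([] : List α) = 0 := rfl

@[simp] theorem sz_cons (a : α) (l : List α) : sz (a :: l) = 2 * sz a + 1 + sz l := by
  simp [sz]

@[simp] theorem sz_append (l m : List α) : sz (l ++ m) = sz l + sz m := by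
  induction l with
  | nil => simp
  | cons a l ih => rw [List.cons_append, sz_cons, ih, sz_cons]; omega

@[simp] theorem sz_reverse (l : List α) : sz l.reverse = sz l := by
  induction l with
  | nil => simp
  | cons a l ih => rw [List.reverse_cons, sz_append, ih, sz_cons, sz_cons, sz_nil]; omega

theorem sz_pair (a : α) (b : β) : sz (a, b) = 2 * sz a + 1 + sz b := by
  simp [sz]

theorem length_le_sz (l : List α) : l.length ≤ sz l := by
  induction l with
  | nil => simp
  | cons a l ih => rw [List.length_cons, sz_cons]; omega

theorem sz_prefix {l m : List α} (h : l <+: m) : sz l ≤ sz m := by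
  obtain ⟨t, rfl⟩ := h
  rw [sz_append]; omega

theorem sz_suffix {l m : List α} (h : l <:+ m) : sz l ≤ sz m := by
  obtain ⟨t, rfl⟩ := h
  rw [sz_append]; omega

theorem sz_sublist {l m : List α} (h : l.Sublist m) : sz l ≤ sz m := by
  induction h with
  | slnil => simp
  | cons a _ ih => rw [sz_cons]; omega
  | cons_cons a _ ih => rw [sz_cons, sz_cons]; omega

theorem sz_mem {l : List α} {a : α} (h : a ∈ l) : sz a ≤ sz l := by
  induction l with
  | nil => simp at h
  | cons b l ih =>
    rw [sz_cons]
    rcases List.mem_cons.1 h with rfl | h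
    · omega
    · have := ih h; omega

theorem sz_map_le {g : β → γ} (l : List β) (K : ℕ) (h : ∀ b ∈ l, sz (g b) ≤ K) :
    sz (l.map g) ≤ l.length * (2 * K + 1) := by
  induction l with
  | nil => simp
  | cons b l ih =>
    rw [List.map_cons, sz_cons, List.length_cons]
    have h1 := h b (by simp)
    have h2 := ih (fun c hc => h c (by simp [hc]))
    nlinarith

/-- pointwise size bound of a mapped list -/
theorem sz_map_bound {f : α × β → γ} {l : α → List β} (hf : PF f) (hl : PF l) :
    ∃ P : Polynomial ℕ, ∀ a : α, ∀ l' : List β, l' <+: l a →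
      sz (l'.map (fun b => f (a, b))) ≤ P.eval (sz a) := by
  obtain ⟨Pf, hPf⟩ := hf.size
  obtain ⟨Pl, hPl⟩ := hl.size
  refine ⟨Pl * (2 * Pf.comp (2 * Polynomial.X + 1 + Pl) + 1), fun a l' hl' => ?_⟩
  have h1 := sz_map_le (g := fun b => f (a, b)) l' (Pf.eval (2 * sz a + 1 + Pl.eval (sz a)))
    (fun b hb => by
      refine (hPf (a, b)).trans (poly_mono Pf ?_)
      rw [sz_pair]
      have := sz_mem (hl'.subset hb)
      have := hPl a
      omega)
  refine h1.trans ?_
  simp only [Polynomial.eval_mul, Polynomial.eval_add, Polynomial.eval_comp, Polynomial.eval_X,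
    Polynomial.eval_one, Polynomial.eval_ofNat]
  refine Nat.mul_le_mul_right _ ?_
  exact (hl'.length_le.trans (length_le_sz _)).trans (hPl a)

theorem foldl_cons (l m : List β) : l.foldl (fun x c => c :: x) m = l.reverse ++ m := by
  induction l generalizing m with
  | nil => rfl
  | cons a l ih => rw [List.foldl_cons, ih]; simp

theorem foldl_cons_map (g : β → γ) (l : List β) (m : List γ) :
    l.foldl (fun x c => g c :: x) m = (l.map g).reverse ++ m := by
  induction l generalizing m with
  | nil => rfl
  | cons a l ih => rw [List.foldl_cons, ih]; simp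

theorem foldl_filter (g : β → Bool) (l : List β) (m : List β) :
    l.foldl (fun x c => if g c = true then c :: x else x) m = (l.filter g).reverse ++ m := by
  induction l generalizing m with
  | nil => rfl
  | cons a l ih =>
    rw [List.foldl_cons, ih]
    by_cases h : g a = true
    · simp [h]
    · simp [h]

theorem foldl_append (l : List (List β)) (m : List β) :
    l.foldl (fun x c => x ++ c) m = m ++ l.flatten := by
  induction l generalizing m with
  | nil => simp
  | cons a l ih => rw [List.foldl_cons, ih]; simp

theorem foldl_or (g : β → Bool) (l : List β) (m : Bool) :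
    l.foldl (fun x c => x || g c) m = (m || l.any g) := by
  induction l generalizing m with
  | nil => simp
  | cons a l ih => rw [List.foldl_cons, ih]; simp [Bool.or_assoc]

theorem foldl_and (g : β → Bool) (l : List β) (m : Bool) :
    l.foldl (fun x c => x && g c) m = (m && l.all g) := by
  induction l generalizing m with
  | nil => simp
  | cons a l ih => rw [List.foldl_cons, ih]; simp [Bool.and_assoc]

theorem sz_flatten_le (l : List (List β)) : sz l.flatten ≤ sz l := by
  induction l with
  | nil => simp
  | cons a l ih => rw [List.flatten_cons, sz_append, sz_cons]; omega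

@[simp] theorem sz_bool (b : Bool) : sz b = 1 := by simp [sz]

end TLib

open TLib

theorem PF.reverse {l : α → List β} (hl : PF l) : PF (fun a => (l a).reverse) := by
  obtain ⟨P, hP⟩ := hl.size
  have h := PF.foldl (f := fun p : α × List β × β => p.2.2 :: p.2.1) (b := fun _ => ([] : List β))
    (PF.cons (PF.snd (PF.snd PF.id)) (PF.fst (PF.snd PF.id))) PF.nil hl
    ⟨P, fun a l' hl' => by
      rw [foldl_cons, List.append_nil, sz_reverse]
      exact (sz_prefix hl').trans (hP a)⟩
  exact TLib.congr h fun a => by rw [foldl_cons, List.append_nil]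

theorem PF.append {l m : α → List β} (hl : PF l) (hm : PF m) : PF (fun a => l a ++ m a) := by
  obtain ⟨P, hP⟩ := hl.size
  obtain ⟨Q, hQ⟩ := hm.size
  have h := PF.foldl (f := fun p : α × List β × β => p.2.2 :: p.2.1) (b := m)
    (PF.cons (PF.snd (PF.snd PF.id)) (PF.fst (PF.snd PF.id))) hm hl.reverse
    ⟨P + Q, fun a l' hl' => by
      rw [foldl_cons, sz_append, sz_reverse, Polynomial.eval_add]
      have h1 := sz_prefix hl'
      rw [sz_reverse] at h1
      exact add_le_add (h1.trans (hP a)) (hQ a)⟩
  exact TLib.congr h fun a => by rw [foldl_cons, List.reverse_reverse]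

theorem PF.map {f : α × β → γ} {l : α → List β} (hf : PF f) (hl : PF l) :
    PF (fun a => (l a).map (fun b => f (a, b))) := by
  obtain ⟨P, hP⟩ := sz_map_bound hf hl
  have h := PF.foldl (f := fun p : α × List γ × β => f (p.1, p.2.2) :: p.2.1)
    (b := fun _ => ([] : List γ))
    (PF.cons (PF.comp hf (PF.pair (PF.fst PF.id) (PF.snd (PF.snd PF.id))))
      (PF.fst (PF.snd PF.id))) PF.nil hl
    ⟨P, fun a l' hl' => by
      have := foldl_cons_map (fun b => f (a, b)) l' []
      rw [List.append_nil] at this
      rw [this, sz_reverse]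
      exact hP a l' hl'⟩
  refine TLib.congr h.reverse fun a => ?_
  have := foldl_cons_map (fun b => f (a, b)) (l a) []
  rw [List.append_nil] at this
  rw [this, List.reverse_reverse]

theorem PF.filter {f : α × β → Bool} {l : α → List β} (hf : PF f) (hl : PF l) :
    PF (fun a => (l a).filter (fun b => f (a, b))) := by
  obtain ⟨P, hP⟩ := hl.size
  have h := PF.foldl
    (f := fun p : α × List β × β => if f (p.1, p.2.2) = true then p.2.2 :: p.2.1 else p.2.1)
    (b := fun _ => ([] : List β))
    (PF.cond (PF.comp hf (PF.pair (PF.fst PF.id) (PF.snd (PF.snd PF.id))))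
      (PF.cons (PF.snd (PF.snd PF.id)) (PF.fst (PF.snd PF.id)))
      (PF.fst (PF.snd PF.id))) PF.nil hl
    ⟨P, fun a l' hl' => by
      have := foldl_filter (fun b => f (a, b)) l' []
      rw [List.append_nil] at this
      rw [this, sz_reverse]
      exact ((sz_sublist List.filter_sublist).trans (sz_prefix hl')).trans (hP a)⟩
  refine TLib.congr h.reverse fun a => ?_
  have := foldl_filter (fun b => f (a, b)) (l a) []
  rw [List.append_nil] at this
  rw [this, List.reverse_reverse]

theorem PF.flatten {l : α → List (List β)} (hl : PF l) : PF (fun a => (l a).flatten) := by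
  obtain ⟨P, hP⟩ := hl.size
  have h := PF.foldl (f := fun p : α × List β × List β => p.2.1 ++ p.2.2)
    (b := fun _ => ([] : List β))
    (PF.append (PF.fst (PF.snd PF.id)) (PF.snd (PF.snd PF.id))) PF.nil hl
    ⟨P, fun a l' hl' => by
      rw [foldl_append, List.nil_append]
      exact ((sz_flatten_le l').trans (sz_prefix hl')).trans (hP a)⟩
  exact TLib.congr h fun a => by rw [foldl_append, List.nil_append]

theorem PF.flatMap {f : α × β → List γ} {l : α → List β} (hf : PF f) (hl : PF l) :
    PF (fun a => (l a).flatMap (fun b => f (a, b))) := by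
  refine TLib.congr (PF.map hf hl).flatten fun a => ?_
  rw [List.flatMap_def]

theorem PF.any {f : α × β → Bool} {l : α → List β} (hf : PF f) (hl : PF l) :
    PF (fun a => (l a).any (fun b => f (a, b))) := by
  have h := PF.foldl (f := fun p : α × Bool × β => p.2.1 || f (p.1, p.2.2))
    (b := fun _ => false)
    (PF.bor (PF.fst (PF.snd PF.id))
      (PF.comp hf (PF.pair (PF.fst PF.id) (PF.snd (PF.snd PF.id))))) (PF.const _) hl
    ⟨1, fun a l' _ => by simp⟩
  refine TLib.congr h fun a => ?_
  have := foldl_or (fun b => f (a, b)) (l a) false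
  rw [Bool.false_or] at this
  exact this.symm

theorem PF.all {f : α × β → Bool} {l : α → List β} (hf : PF f) (hl : PF l) :
    PF (fun a => (l a).all (fun b => f (a, b))) := by
  have h := PF.foldl (f := fun p : α × Bool × β => p.2.1 && f (p.1, p.2.2))
    (b := fun _ => true)
    (PF.band (PF.fst (PF.snd PF.id))
      (PF.comp hf (PF.pair (PF.fst PF.id) (PF.snd (PF.snd PF.id))))) (PF.const _) hl
    ⟨1, fun a l' _ => by simp⟩
  refine TLib.congr h fun a => ?_
  have := foldl_and (fun b => f (a, b)) (l a) true
  rw [Bool.true_and] at this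
  exact this.symm

theorem PF.find? {f : α × β → Bool} {l : α → List β} (hf : PF f) (hl : PF l) :
    PF (fun a => (l a).find? (fun b => f (a, b))) := by
  refine TLib.congr (PF.head? (PF.filter hf hl)) fun a => ?_
  rw [List.head?_filter]

theorem PF.mem [DecidableEq β] {f : α → β} {l : α → List β} (hf : PF f) (hl : PF l) :
    PF (fun a => decide (f a ∈ l a)) := by
  have h := PF.any (f := fun p : α × β => decide (f p.1 = p.2))
    (PF.beq (PF.comp hf (PF.fst PF.id)) (PF.snd PF.id)) hl
  refine TLib.congr h fun a => ?_
  rw [Bool.eq_iff_iff]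
  simp

theorem PF.drop {n : α → ℕ} {l : α → List β} (hn : PF n) (hl : PF l) :
    PF (fun a => (l a).drop (n a)) := by
  obtain ⟨P, hP⟩ := hl.size
  have key : ∀ (x : List β) (i : ℕ), (fun y : List β => y.tail)^[i] x = x.drop i := by
    intro x i
    induction i with
    | zero => simp
    | succ i ih => rw [Function.iterate_succ_apply', ih]; simp
  have h := PF.iterate (f := fun p : α × List β => p.2.tail) (b := l)
    (PF.tail (PF.snd PF.id)) hn hl
    ⟨P, fun a i _ => by
      show sz ((fun y : List β => y.tail)^[i] (l a)) ≤ _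
      rw [key]
      exact (sz_suffix (List.drop_suffix _ _)).trans (hP a)⟩
  exact TLib.congr h fun a => (key _ _).symm

theorem PF.take {n : α → ℕ} {l : α → List β} (hn : PF n) (hl : PF l) :
    PF (fun a => (l a).take (n a)) := by
  refine TLib.congr (PF.reverse (PF.drop (PF.sub (PF.length hl) hn) (PF.reverse hl))) fun a => ?_
  rw [List.drop_reverse, List.reverse_reverse]
  by_cases h : n a ≤ (l a).length
  · congr 1; omega
  · rw [List.take_of_length_le (by omega), List.take_of_length_le (by omega)]

theorem PF.getElem? {n : α → ℕ} {l : α → List β} (hn : PF n) (hl : PF l) :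
    PF (fun a => (l a)[n a]?) := by
  refine TLib.congr (PF.head? (PF.drop hn hl)) fun a => ?_
  rw [List.head?_drop]

theorem PF.isPrefixOf [DecidableEq β] {l m : α → List β} (hl : PF l) (hm : PF m) :
    PF (fun a => decide (l a <+: m a)) := by
  refine TLib.congr (PF.beq hl (PF.take (PF.length hl) hm)) fun a => ?_
  rw [decide_eq_decide]
  exact List.prefix_iff_eq_take

theorem PF.isSuffixOf [DecidableEq β] {l m : α → List β} (hl : PF l) (hm : PF m) :
    PF (fun a => decide (l a <:+ m a)) := by
  refine TLib.congr (PF.beq hl (PF.drop (PF.sub (PF.length hm) (PF.length hl)) hm)) fun a => ?_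
  rw [decide_eq_decide]
  exact List.suffix_iff_eq_drop

theorem PF.isInfixOf [DecidableEq β] {l m : α → List β} (hl : PF l) (hm : PF m) :
    PF (fun a => decide (l a <:+: m a)) := by
  have h := PF.any (f := fun p : α × ℕ => decide (l p.1 <+: (m p.1).drop p.2))
    (PF.isPrefixOf (PF.comp hl (PF.fst PF.id))
      (PF.drop (PF.snd PF.id) (PF.comp hm (PF.fst PF.id))))
    (PF.range (PF.succ (PF.length hm)))
  refine TLib.congr h fun a => ?_
  rw [Bool.eq_iff_iff]
  simp only [decide_eq_true_eq, List.any_eq_true, List.mem_range]
  constructor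
  · rintro ⟨s, t, e⟩
    refine ⟨s.length, ?_, t, ?_⟩
    · have := congrArg List.length e
      simp only [List.length_append] at this
      omega
    · rw [← e, List.append_assoc, List.drop_left]
  · rintro ⟨i, _, t, e⟩
    refine ⟨(m a).take i, t, ?_⟩
    rw [List.append_assoc, e, List.take_append_drop]

end Crest.Agent.PT
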