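import Crest.Agent.PT.IOPrint
import Crest.Agent.PT.TLib

/-!
Input routine: from `natCode S.length ++ (S.map listCode).flatten` to the typed code of the list
of lists of bit strings (the binary digits of the symbols).
-/

set_option autoImplicit false

namespace Crest.Agent.PT

namespace IOQ

open TEq

/-! ### tokens -/

/-- state `pr z acc`: read the next number of `z` and put its digits in front of `acc` -/
def tokStep (st : List Bool) : List Bool :=
  match fstP st with
  | [] => st
  | false :: _ => pr (sndP (fstP st)).tail (pr (fstP (fstP st)) (sndP st))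
  | true :: _ => pr (sndP (fstP st)).tail (pr (fstP (fstP st)) (sndP st))

theorem PT_tokStep : PT tokStep := by
  have h : PT (fun st => pr (sndP (fstP st)).tail (pr (fstP (fstP st)) (sndP st))) :=
    PT_pair (cmp PT_tail (cmp PT_snd PT_fst)) (PT_pair (cmp PT_fst PT_fst) PT_snd)
  exact PT_casesOn PT_fst PT_id h h

theorem tokStep_len (st : List Bool) : (tokStep st).length ≤ st.length + 1 := by
  have h1 := len_fst_snd st
  have h2 := len_fst_snd (fstP st)
  have h3 : (sndP (fstP st)).tail.length ≤ (sndP (fstP st)).length := by simp
  unfold tokStep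
  rcases h4 : fstP st with _ | ⟨b, x⟩
  · simp
  · rw [h4] at h1 h2 h3
    have h5 : (sndP (b :: x)).tail.length + 1 ≤ (b :: x).length := by
      have : (sndP (b :: x)).tail.length = (sndP (b :: x)).length - 1 := by simp
      simp only [List.length_cons] at h2 ⊢
      omega
    cases b <;> simp only [length_pr] <;> omega

theorem tokStep_iter_len (st : List Bool) (i : ℕ) :
    (tokStep^[i] st).length ≤ st.length + i := by
  induction i with
  | zero => simp
  | succ i ih =>
    rw [Function.iterate_succ_apply']
    have := tokStep_len (tokStep^[i] st)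
    omega

theorem tokStep_nil (acc : List Bool) : tokStep (pr [] acc) = pr [] acc := by
  simp [tokStep, fstP]

theorem tokStep_iter_nil (acc : List Bool) (k : ℕ) :
    tokStep^[k] (pr [] acc) = pr [] acc := Function.iterate_fixed (tokStep_nil acc) k

theorem tokStep_cons (c z acc : List Bool) :
    tokStep (pr (pr c (false :: z)) acc) = pr z (pr c acc) := by
  have h : tokStep (pr (pr c (false :: z)) acc)
      = pr (sndP (pr c (false :: z))).tail (pr (fstP (pr c (false :: z))) acc) := by
    cases c <;> simp [tokStep, fstP, sndP]
  rw [h, fstP_pr, sndP_pr]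
  rfl

/-- concatenated self-delimiting codes -/
def catR (l : List (List Bool)) : List Bool := (l.map fun c => pr c [false]).flatten

theorem pr_append (a b c : List Bool) : pr a b ++ c = pr a (b ++ c) := by
  simp [pr]

theorem catR_cons (c : List Bool) (l : List (List Bool)) :
    catR (c :: l) = pr c (false :: catR l) := by
  unfold catR
  rw [List.map_cons, List.flatten_cons, pr_append]
  rfl

theorem len_le_catR (l : List (List Bool)) : l.length ≤ (catR l).length := by
  induction l with
  | nil => simp [catR]
  | cons c l ih => rw [catR_cons]; simp only [length_pr, List.length_cons]; omega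

theorem tok_iter (l : List (List Bool)) (acc : List (List Bool)) (k : ℕ) (hk : l.length ≤ k) :
    tokStep^[k] (pr (catR l) (IOP.encR acc)) = pr [] (IOP.encR (l.reverse ++ acc)) := by
  induction l generalizing acc k with
  | nil => exact tokStep_iter_nil _ _
  | cons c l ih =>
    obtain ⟨k, rfl⟩ : ∃ k', k = k' + 1 := ⟨k - 1, by simp at hk; omega⟩
    rw [Function.iterate_succ_apply, catR_cons, tokStep_cons]
    have := ih (c :: acc) k (by simpa using hk)
    simp only [IOP.encR] at this
    rw [this]
    simp

/-- the (reversed) list of tokens -/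
def toks (x : List Bool) : List Bool := sndP (tokStep^[x.length] (pr x []))

theorem PT_toks : PT toks := by
  have h1 : PT (fun x => tokStep^[(fstP x).length] (sndP x)) :=
    PT_iter PT_tokStep ⟨2 * Polynomial.X, fun x i hi => by
      simp only [Polynomial.eval_mul, Polynomial.eval_ofNat, Polynomial.eval_X]
      have h := len_fst_snd x
      exact (tokStep_iter_len _ i).trans (by omega)⟩
  have h2 := cmp PT_snd (cmp h1 (PT_pair PT_id (PT_pair PT_id (PT_const []))))
  refine PT_congr h2 fun b => ?_
  simp only [fstP_pr, sndP_pr]
  rfl

theorem toks_catR (l : List (List Bool)) : toks (catR l) = IOP.encR l.reverse := by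
  unfold toks
  have := tok_iter l [] (catR l).length (len_le_catR l)
  simp only [IOP.encR, List.append_nil] at this
  rw [this, sndP_pr]

/-! ### grouping -/

/-- state: (announced length, counter), reversed list of reversed lists -/
abbrev GS : Type := (Bits × Bits) × List (List Bits)

def incB (x : Bits) : Bits := IOP.inc x

theorem PF_incB {α : Type} [Enc α] {f : α → Bits} (hf : PF f) : PF (fun a => incB (f a)) := by
  obtain ⟨F, hF, eF⟩ := hf
  exact ⟨_, cmp IOP.PT_inc hF, fun a => by beta_reduce; rw [eF]; rfl⟩

def nilB : Bits := ([] : List Bool)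

/-- one token -/
def gstep (s : GS) (t : Bits) : GS :=
  if decide (s.1.1 = s.1.2) = true then ((t, nilB), [] :: s.2)
  else ((s.1.1, incB s.1.2),
    match s.2 with
    | [] => []
    | l :: r => (t :: l) :: r)

theorem PF_gstep {α : Type} [Enc α] :
    PF (fun p : α × GS × Bits => gstep p.2.1 p.2.2) := by
  unfold gstep
  refine PF.cond (PF.beq (PF.fst (PF.fst (PF.fst (PF.snd PF.id))))
    (PF.snd (PF.fst (PF.fst (PF.snd PF.id))))) ?_ ?_
  · exact PF.pair (PF.pair (PF.snd (PF.snd PF.id)) (PF.const _))
      (PF.cons PF.nil (PF.snd (PF.fst (PF.snd PF.id))))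
  · refine PF.pair (PF.pair (PF.fst (PF.fst (PF.fst (PF.snd PF.id))))
      (PF_incB (PF.snd (PF.fst (PF.fst (PF.snd PF.id)))))) ?_
    refine TLib.congr (PF.list_cases
      (g := fun q : (α × GS × Bits) × List Bits × List (List Bits) =>
        (q.1.2.2 :: q.2.1) :: q.2.2)
      (PF.snd (PF.fst (PF.snd PF.id))) PF.nil
      (PF.cons (PF.cons (PF.snd (PF.snd (PF.fst PF.id))) (PF.fst (PF.snd PF.id)))
        (PF.snd (PF.snd PF.id)))) fun p => ?_
    obtain ⟨a, ⟨⟨L, C⟩, o⟩, t⟩ := p
    cases o <;> rfl

theorem sz_bits (x : Bits) : sz x = List.length (x : List Bool) := rfl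

theorem gstep_sz (s : GS) (t : Bits) :
    sz (gstep s t).2 ≤ sz s.2 + 4 * sz t + 2 ∧
    sz (gstep s t).1.1 ≤ sz s.1.1 + sz t ∧ sz (gstep s t).1.2 ≤ sz s.1.2 + 1 := by
  obtain ⟨⟨L, C⟩, o⟩ := s
  unfold gstep
  have h0 : sz nilB = 0 := rfl
  have h1 : sz (incB C) ≤ sz C + 1 := IOP.inc_len C
  split
  · refine ⟨?_, ?_, ?_⟩
    · simp only [TLib.sz_cons, TLib.sz_nil]; omega
    · simp only; omega
    · simp only; omega
  · refine ⟨?_, ?_, ?_⟩
    · cases o with
      | nil => simp
      | cons l r => simp only [TLib.sz_cons]; omega
    · simp only; omega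
    · simpa using h1

theorem gfold_sz (l : List Bits) (s : GS) :
    sz (l.foldl gstep s).2 ≤ sz s.2 + 2 * sz l ∧
    sz (l.foldl gstep s).1.1 ≤ sz s.1.1 + sz l ∧
    sz (l.foldl gstep s).1.2 ≤ sz s.1.2 + sz l := by
  induction l generalizing s with
  | nil => simp
  | cons t l ih =>
    rw [List.foldl_cons]
    obtain ⟨h1, h2, h3⟩ := ih (gstep s t)
    obtain ⟨g1, g2, g3⟩ := gstep_sz s t
    rw [TLib.sz_cons]
    exact ⟨by omega, by omega, by omega⟩

def gstart : GS := ((nilB, nilB), [])

theorem PF_gfold {α : Type} [Enc α] {l : α → List Bits} (hl : PF l) :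
    PF (fun a => (l a).foldl gstep gstart) := by
  obtain ⟨P, hP⟩ := hl.size
  exact PF.foldl (f := fun p : α × GS × Bits => gstep p.2.1 p.2.2) (b := fun _ => gstart)
    PF_gstep (PF.const _) hl
    ⟨8 * P + 10, fun a l' hl' => by
      obtain ⟨h1, h2, h3⟩ := gfold_sz l' gstart
      have h4 := (TLib.sz_prefix hl').trans (hP a)
      simp only [Polynomial.eval_add, Polynomial.eval_mul, Polynomial.eval_ofNat]
      have h5 : sz gstart.2 = 0 := rfl
      have h6 : sz gstart.1.1 = 0 := rfl
      have h7 : sz gstart.1.2 = 0 := rfl
      change sz (l'.foldl gstep gstart) ≤ _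
      generalize l'.foldl gstep gstart = u at *
      obtain ⟨⟨u1, u2⟩, u3⟩ := u
      rw [TLib.sz_pair, TLib.sz_pair]
      simp only at h1 h2 h3
      omega⟩

theorem bits_inj {m n : ℕ} (h : m.bits = n.bits) : m = n := by
  apply Nat.digits.injective 2
  rw [Nat.digits_two_eq_bits, Nat.digits_two_eq_bits, h]

/-- symbols as bit strings -/
def bB (n : ℕ) : Bits := n.bits

/-- correctness of the grouping -/
theorem gfold_elems (l : List Bits) (n k : ℕ) (hk : n + l.length = k) (cur : List Bits)
    (o : List (List Bits)) :
    l.foldl gstep ((bB k, bB n), cur :: o) = ((bB k, bB k), (l.reverse ++ cur) :: o) := by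
  induction l generalizing n cur with
  | nil =>
    simp at hk
    subst hk
    rfl
  | cons c l ih =>
    have hne : bB k ≠ bB n := by
      intro h
      have : k = n := bits_inj h
      simp at hk
      omega
    rw [List.foldl_cons]
    have h1 : gstep ((bB k, bB n), cur :: o) c
        = ((bB k, bB (n + 1)), (c :: cur) :: o) := by
      unfold gstep
      have h2 : decide (bB k = bB n) = false := decide_eq_false hne
      simp only [h2, Bool.false_eq_true, if_false]
      have h3 : incB (bB n) = bB (n + 1) := IOP.inc_bits n
      rw [h3]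
    rw [h1, ih (n + 1) (by simp at hk ⊢; omega) (c :: cur)]
    simp

theorem gfold_list (l : List Bits) (L : Bits) (o : List (List Bits)) :
    (bB l.length :: l).foldl gstep ((L, L), o)
      = ((bB l.length, bB l.length), l.reverse :: o) := by
  rw [List.foldl_cons]
  have h1 : gstep ((L, L), o) (bB l.length) = ((bB l.length, bB 0), [] :: o) := by
    unfold gstep
    simp only [decide_true, if_true]
    rfl
  rw [h1, gfold_elems l 0 l.length (by simp) [] o]
  simp

theorem gfold_all (S : List (List Bits)) (L : Bits) (o : List (List Bits)) :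
    ((S.map fun l => bB l.length :: l).flatten.foldl gstep ((L, L), o)).2
      = (S.map List.reverse).reverse ++ o := by
  induction S generalizing L o with
  | nil => simp
  | cons l S ih =>
    rw [List.map_cons, List.flatten_cons, List.foldl_append, gfold_list, ih]
    simp

/-- from the reversed list of tokens to the list of lists -/
def group (t : List Bits) : List (List Bits) :=
  ((t.reverse.tail.foldl gstep gstart).2.map List.reverse).reverse

theorem PF_group : PF group := by
  have h1 : PF (fun t : List Bits => (t.reverse.tail.foldl gstep gstart).2) :=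
    PF.snd (PF_gfold (PF.tail (PF.reverse PF.id)))
  exact PF.reverse (PF.map (f := fun p : List Bits × List Bits => p.2.reverse)
    (PF.reverse (PF.snd PF.id)) h1)

theorem group_eq (c : Bits) (S : List (List Bits)) :
    group (c :: (S.map fun l => bB l.length :: l).flatten).reverse = S := by
  unfold group
  rw [List.reverse_reverse, List.tail_cons]
  have := gfold_all S nilB []
  unfold gstart
  rw [this, List.append_nil, List.map_reverse, List.reverse_reverse, List.map_map]
  have h2 : (List.reverse ∘ List.reverse : List Bits → List Bits) = id := by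
    funext l; simp
  rw [h2, List.map_id]

theorem input_eq (S : List (List ℕ)) :
    Crest.Enc.natCode S.length ++ (S.map Crest.Enc.listCode).flatten
      = catR (bB S.length :: ((S.map (fun s => s.map bB)).map
          fun l => bB l.length :: l).flatten) := by
  have hl : ∀ s : List ℕ, Crest.Enc.listCode s = catR (bB (s.map bB).length :: s.map bB) := by
    intro s
    unfold Crest.Enc.listCode catR
    rw [IOP.natCode_eq, List.map_cons, List.flatten_cons, List.map_map, List.length_map]
    congr 3
  have happ : ∀ a b : List (List Bool), catR (a ++ b) = catR a ++ catR b := by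
    intro a b
    simp [catR]
  have h2 : (S.map Crest.Enc.listCode).flatten
      = catR ((S.map (fun s => s.map bB)).map fun l => bB l.length :: l).flatten := by
    induction S with
    | nil => rfl
    | cons s S ih =>
      rw [List.map_cons, List.flatten_cons, ih, hl, List.map_cons, List.map_cons,
        List.flatten_cons]
      exact (happ _ _).symm
  rw [h2, IOP.natCode_eq]
  unfold catR
  rw [List.map_cons, List.flatten_cons]
  rfl

/-- reading the input of S0432 -/
theorem parse_bits : ∃ g : List Bool → List Bool, PT g ∧ ∀ S : List (List ℕ),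
    g (Crest.Enc.natCode S.length ++ (S.map Crest.Enc.listCode).flatten)
      = enc (S.map (fun s => s.map (fun n => (n.bits : Bits)))) := by
  obtain ⟨G, hG, eG⟩ := PF_group
  refine ⟨_, cmp hG PT_toks, fun S => ?_⟩
  rw [input_eq, toks_catR]
  have h1 := eG (bB S.length :: ((S.map (fun s => s.map bB)).map
          fun l => bB l.length :: l).flatten).reverse
  rw [group_eq] at h1
  rw [IOP.encR_eq] at h1
  exact h1

end IOQ

end Crest.Agent.PT
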