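import Crest.Agent.PT.TEq

/-!
Output routine: from the typed code of a list of bit strings (the binary digits of the symbols)
to `Crest.Enc.listCode`.
-/

set_option autoImplicit false

namespace Crest.Agent.PT

namespace IOP

open TEq

/-! ### reversing and appending raw strings -/

def revStep (z : List Bool) : List Bool :=
  match fstP z with
  | [] => z
  | false :: _ => pr (fstP z).tail (false :: sndP z)
  | true :: _ => pr (fstP z).tail (true :: sndP z)

theorem PT_revStep : PT revStep :=
  PT_casesOn PT_fst PT_id
    (PT_pair (cmp PT_tail PT_fst) (cmp (PT_cons false) PT_snd))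
    (PT_pair (cmp PT_tail PT_fst) (cmp (PT_cons true) PT_snd))

theorem revStep_len (z : List Bool) : (revStep z).length ≤ z.length := by
  have h := len_fst_snd z
  unfold revStep
  rcases h1 : fstP z with _ | ⟨b, x⟩
  · simp
  · rw [h1] at h
    simp only [List.length_cons] at h
    cases b <;> simp <;> omega

theorem revStep_iter_len (z : List Bool) (i : ℕ) : (revStep^[i] z).length ≤ z.length := by
  induction i with
  | zero => simp
  | succ i ih => rw [Function.iterate_succ_apply']; exact (revStep_len _).trans ih

theorem revStep_pr (c : Bool) (x y : List Bool) : revStep (pr (c :: x) y) = pr x (c :: y) := by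
  unfold revStep
  rw [fstP_pr, sndP_pr]
  cases c <;> rfl

theorem revStep_iter (x y : List Bool) : revStep^[x.length] (pr x y) = pr [] (x.reverse ++ y) := by
  induction x generalizing y with
  | nil => rfl
  | cons c x ih =>
    rw [List.length_cons, Function.iterate_succ_apply, revStep_pr, ih]
    simp

theorem PT_revApp : PT (fun z => (fstP z).reverse ++ sndP z) := by
  have h1 : PT (fun x => revStep^[(fstP x).length] (sndP x)) :=
    PT_iter PT_revStep ⟨Polynomial.X, fun x i _ => by
      rw [Polynomial.eval_X]
      have h := len_fst_snd x
      exact (revStep_iter_len _ i).trans (by omega)⟩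
  have h2 := cmp PT_snd (cmp h1 (PT_pair PT_fst (PT_pair PT_fst PT_snd)))
  refine PT_congr h2 fun z => ?_
  simp only [fstP_pr, sndP_pr]
  rw [revStep_iter, sndP_pr]

/-- append two computed strings -/
theorem PT_append {f g : List Bool → List Bool} (hf : PT f) (hg : PT g) :
    PT (fun z => f z ++ g z) := by
  have h1 : PT (fun z => (f z).reverse) := by
    refine PT_congr (cmp PT_revApp (PT_pair hf (PT_const []))) fun z => ?_
    simp
  refine PT_congr (cmp PT_revApp (PT_pair h1 hg)) fun z => ?_
  simp

/-! ### binary increment -/

def incStep (z : List Bool) : List Bool :=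
  match sndP z with
  | [] => z
  | false :: _ => z
  | true :: _ => pr (false :: fstP z) (sndP z).tail

theorem PT_incStep : PT incStep :=
  PT_casesOn PT_snd PT_id PT_id
    (PT_pair (cmp (PT_cons false) PT_fst) (cmp PT_tail PT_snd))

theorem incStep_len (z : List Bool) : (incStep z).length ≤ z.length + 2 := by
  have h := len_fst_snd z
  unfold incStep
  rcases h1 : sndP z with _ | ⟨b, x⟩
  · simp
  · rw [h1] at h
    simp only [List.length_cons] at h
    cases b <;> simp
    omega

theorem incStep_iter_len (z : List Bool) (i : ℕ) : (incStep^[i] z).length ≤ z.length + 2 * i := by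
  induction i with
  | zero => simp
  | succ i ih =>
    rw [Function.iterate_succ_apply']
    have := incStep_len (incStep^[i] z)
    omega

def incFin (z : List Bool) : List Bool :=
  match sndP z with
  | [] => fstP z ++ [true]
  | false :: _ => fstP z ++ true :: (sndP z).tail
  | true :: _ => []

theorem PT_incFin : PT incFin :=
  PT_casesOn PT_snd (PT_append PT_fst (PT_const [true]))
    (PT_append PT_fst (cmp (PT_cons true) (cmp PT_tail PT_snd))) (PT_const [])

/-- binary increment, least significant digit first -/
def inc : List Bool → List Bool
  | [] => [true]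
  | false :: l => true :: l
  | true :: l => false :: inc l

theorem incStep_fix (k : ℕ) (w z : List Bool) (h : incStep (pr w z) = pr w z) :
    incStep^[k] (pr w z) = pr w z := Function.iterate_fixed h k

theorem inc_iter (b : List Bool) (m k : ℕ) (hk : b.length ≤ k) :
    incFin (incStep^[k] (pr (List.replicate m false) b)) = List.replicate m false ++ inc b := by
  induction b generalizing m k with
  | nil =>
    rw [incStep_fix k _ _ (by simp [incStep])]
    simp [incFin, inc]
  | cons c b ih =>
    cases c with
    | false =>
      rw [incStep_fix k _ _ (by simp [incStep])]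
      simp [incFin, inc]
    | true =>
      obtain ⟨k, rfl⟩ : ∃ k', k = k' + 1 := ⟨k - 1, by simp at hk; omega⟩
      rw [Function.iterate_succ_apply]
      have h1 : incStep (pr (List.replicate m false) (true :: b))
          = pr (List.replicate (m + 1) false) b := by
        simp [incStep, List.replicate_succ]
      rw [h1, ih (m + 1) k (by simpa using hk), List.replicate_succ']
      simp [inc]

theorem PT_inc : PT inc := by
  have h1 : PT (fun x => incStep^[(fstP x).length] (sndP x)) :=
    PT_iter PT_incStep ⟨3 * Polynomial.X, fun x i hi => by
      simp only [Polynomial.eval_mul, Polynomial.eval_ofNat, Polynomial.eval_X]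
      have h := len_fst_snd x
      exact (incStep_iter_len _ i).trans (by omega)⟩
  have h2 := cmp PT_incFin (cmp h1 (PT_pair PT_id (PT_pair (PT_const []) PT_id)))
  refine PT_congr h2 fun b => ?_
  simp only [fstP_pr, sndP_pr]
  have := inc_iter b 0 b.length le_rfl
  simpa using this.symm

theorem inc_bits (n : ℕ) : inc n.bits = (n + 1).bits := by
  induction n using Nat.strong_induction_on with
  | _ n ih =>
    rcases Nat.even_or_odd' n with ⟨m, hm | hm⟩
    · rcases Nat.eq_zero_or_pos m with h0 | h0
      · subst h0; subst hm; simp [inc]
      · subst hm
        rw [Nat.bit0_bits m (by omega), Nat.bit1_bits]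
        rfl
    · subst hm
      have h1 : 2 * m + 1 + 1 = 2 * (m + 1) := by ring
      rw [Nat.bit1_bits, h1, Nat.bit0_bits (m + 1) (by omega), inc, ih m (by omega)]

theorem inc_len (b : List Bool) : (inc b).length ≤ b.length + 1 := by
  induction b with
  | nil => simp [inc]
  | cons c b ih => cases c <;> simp [inc]; omega

/-! ### the list code -/

theorem natCode_eq (n : ℕ) : Crest.Enc.natCode n = pr n.bits [false] := by
  unfold Crest.Enc.natCode pr
  rw [List.flatMap_def]

/-- one step of the fold: counter and output -/
def pstep (s : List Bool × List Bool) (c : List Bool) : List Bool × List Bool :=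
  (inc s.1, s.2 ++ pr c [false])

theorem pstep_fold (l : List (List Bool)) (n : ℕ) (o : List Bool) :
    l.foldl pstep (n.bits, o)
      = ((n + l.length).bits, o ++ (l.map fun c => pr c [false]).flatten) := by
  induction l generalizing n o with
  | nil => simp
  | cons c l ih =>
    rw [List.foldl_cons]
    have h1 : pstep (n.bits, o) c = ((n + 1).bits, o ++ pr c [false]) := by
      unfold pstep
      rw [inc_bits]
    rw [h1, ih]
    have h2 : n + 1 + l.length = n + (c :: l).length := by simp; omega
    rw [h2]
    simp

theorem bits_length_le (n : ℕ) : n.bits.length ≤ n := by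
  induction n using Nat.strong_induction_on with
  | _ n ih =>
    rcases Nat.even_or_odd' n with ⟨m, hm | hm⟩
    · rcases Nat.eq_zero_or_pos m with h0 | h0
      · subst h0; subst hm; simp
      · subst hm
        rw [Nat.bit0_bits m (by omega), List.length_cons]
        have := ih m (by omega)
        omega
    · subst hm
      rw [Nat.bit1_bits, List.length_cons]
      rcases Nat.eq_zero_or_pos m with h0 | h0
      · subst h0; simp
      · have := ih m (by omega)
        omega

/-- raw version of the code of a list of bit strings -/
def encR : List (List Bool) → List Bool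
  | [] => []
  | a :: l => pr a (encR l)

theorem encR_eq (l : List Bits) : enc l = encR (l : List (List Bool)) := by
  induction l with
  | nil => rfl
  | cons a l ih => rw [enc_cons, ih]; rfl

theorem flat_len (l : List (List Bool)) :
    ((l.map fun c => pr c [false]).flatten).length ≤ 2 * (encR l).length := by
  induction l with
  | nil => simp
  | cons c l ih =>
    simp only [List.map_cons, List.flatten_cons, List.length_append, length_pr, encR,
      List.length_cons, List.length_nil]
    omega

theorem enc_len_prefix {l' l : List (List Bool)} (h : l' <+: l) :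
    (encR l').length ≤ (encR l).length := by
  obtain ⟨m, rfl⟩ := h
  induction l' with
  | nil => simp [encR]
  | cons c l ih => simp only [List.cons_append, encR, length_pr]; omega

theorem len_le_enc (l : List (List Bool)) : l.length ≤ (encR l).length := by
  induction l with
  | nil => simp
  | cons c l ih => simp only [encR, length_pr, List.length_cons]; omega

theorem fold_bound (l' l : List (List Bool)) (hl' : l' <+: l) :
    (pr (l'.foldl pstep ([], [])).1 (l'.foldl pstep ([], [])).2).length
      ≤ 4 * (encR l).length + 1 := by
  have h0 := pstep_fold l' 0 []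
  rw [Nat.zero_bits] at h0
  rw [h0]
  have h1 := enc_len_prefix hl'
  have h2 := flat_len l'
  have h3 := bits_length_le (0 + l'.length)
  have h4 := len_le_enc l'
  simp only [length_pr, List.nil_append]
  omega

/-- the step with types `Bits` -/
def pstepB (s : Bits × Bits) (c : Bits) : Bits × Bits := pstep s c

/-- the start with type `Bits × Bits` -/
def startB : Bits × Bits := (([] : List Bool), ([] : List Bool))

theorem hfold : PF (fun l : List Bits => List.foldl pstepB startB l) := by
  have hf : PF (fun p : List Bits × (Bits × Bits) × Bits => pstepB p.2.1 p.2.2) := by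
    have h1 : PT (fun z => inc (fstP (fstP (sndP z)))) :=
      cmp PT_inc (cmp PT_fst (cmp PT_fst PT_snd))
    have h2 : PT (fun z => sndP (fstP (sndP z)) ++ pr (sndP (sndP z)) [false]) :=
      PT_append (cmp PT_snd (cmp PT_fst PT_snd))
        (PT_pair (cmp PT_snd PT_snd) (PT_const [false]))
    refine ⟨_, PT_pair h1 h2, fun p => ?_⟩
    obtain ⟨u, ⟨a, b⟩, c⟩ := p
    simp only [enc_pair, fstP_pr, sndP_pr]
    rfl
  exact PF.foldl (α := List Bits)
    (f := fun p : List Bits × (Bits × Bits) × Bits => pstepB p.2.1 p.2.2)
    (b := fun _ => startB) (l := fun l => l)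
    hf (PF.const _) PF.id
    ⟨4 * Polynomial.X + 1, fun l l' hl' => by
      simp only [Polynomial.eval_add, Polynomial.eval_mul, Polynomial.eval_ofNat,
        Polynomial.eval_X, Polynomial.eval_one, sz]
      rw [encR_eq]
      exact fold_bound l' l hl'⟩

/-- writing the output of S0432 -/
theorem print_bits : ∃ g : List Bool → List Bool, PT g ∧ ∀ T : List ℕ,
    g (enc (T.map (fun n => (n.bits : Bits)))) = Crest.Enc.listCode T := by
  obtain ⟨g, hg, hgl⟩ := hfold
  refine ⟨_, PT_append (PT_pair (cmp PT_fst hg) (PT_const [false])) (cmp PT_snd hg), fun T => ?_⟩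
  have h1 : g (enc (T.map (fun n => (n.bits : Bits))))
      = pr ((List.foldl pstep ([], []) (T.map Nat.bits)).1)
          ((List.foldl pstep ([], []) (T.map Nat.bits)).2) :=
    hgl (T.map (fun n => (n.bits : Bits)))
  rw [h1]
  have h0 := pstep_fold (T.map Nat.bits) 0 []
  rw [Nat.zero_bits] at h0
  rw [h0]
  simp only [fstP_pr, sndP_pr]
  unfold Crest.Enc.listCode
  rw [natCode_eq, List.length_map, zero_add, List.nil_append, List.map_map]
  congr 2

end IOP

end Crest.Agent.PT
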