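import Crest.Agent.PT.TLib
import Crest.Agent.PT.Compile
import Crest.Agent.PT.IOPrint
import Crest.Agent.PT.IOParse

set_option autoImplicit false

namespace Crest.Agent.PT

/-- symbols as bit strings -/
def bitsOf (n : ℕ) : Bits := n.bits

theorem bitsOf_inj : Function.Injective bitsOf := fun _ _ h => IOQ.bits_inj h

/-- reading the input of S0432 -/
theorem parse_input : ∃ g : List Bool → List Bool, PT g ∧ ∀ S : List (List ℕ),
    g (Crest.Enc.natCode S.length ++ (S.map Crest.Enc.listCode).flatten)
      = enc (S.map (fun s => s.map bitsOf)) := IOQ.parse_bits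

/-- writing the output of S0432 -/
theorem print_output : ∃ g : List Bool → List Bool, PT g ∧ ∀ T : List ℕ,
    g (enc (T.map bitsOf)) = Crest.Enc.listCode T := IOP.print_bits

end Crest.Agent.PT
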