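import Crest.Agent.PT.Defs

/-!
Macros for structured stack programs, with their `Exec` lemmas.
All lemmas are of the form `Exec (macro ..) s (explicit updates of s) (explicit cost)`;
use `Exec.cast` (with `funext`/`simp [Function.update_apply]`/`split_ifs`) to rewrite states.
-/

set_option autoImplicit false

namespace Crest.Agent.PT

open Function (update)

theorem Exec.cast {p : Prog} {s s' s'' : St} {t t' : ℕ} (h : Exec p s s' t) (hs : s' = s'')
    (ht : t = t') : Exec p s s'' t' := by
  subst hs; subst ht; exact h

theorem Exec.seq' {p q : Prog} {s s' s'' : St} {t t' T : ℕ} (hp : Exec p s s' t)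
    (hq : Exec q s' s'' t') (hT : t + t' = T) : Exec (.seq p q) s s'' T := by
  subst hT; exact .seq hp hq

/-- empty stack `i` -/
def clear (i : ℕ) : Prog := .loop i (.pop i)

theorem exec_clear (i : ℕ) (s : St) :
    Exec (clear i) s (update s i []) (2 * (s i).length + 1) := by
  generalize hl : s i = l
  induction l generalizing s with
  | nil =>
    refine (Exec.loop_done hl).cast ?_ (by simp)
    rw [← hl]; simp
  | cons c l ih =>
    have h1 := ih (update s i (s i).tail) (by simp [hl])
    refine (Exec.loop_step (by simp [hl]) (Exec.pop i s) h1).cast ?_ ?_
    · simp
    · simp only [List.length_cons]; ring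

/-- move stack `i` onto stack `j`, reversing it -/
def moveRev (i j : ℕ) : Prog :=
  .loop i (.ite i .skip (.seq (.push j false) (.pop i)) (.seq (.push j true) (.pop i)))

theorem exec_moveRev {i j : ℕ} (hij : i ≠ j) (s : St) :
    Exec (moveRev i j) s (update (update s i []) j ((s i).reverse ++ s j))
      (4 * (s i).length + 1) := by
  generalize hl : s i = l
  induction l generalizing s with
  | nil =>
    refine (Exec.loop_done hl).cast ?_ (by simp)
    have : update s i [] = s := by rw [← hl]; simp
    rw [this]; simp
  | cons c l ih =>
    have key : Exec (.ite i .skip (.seq (.push j false) (.pop i)) (.seq (.push j true) (.pop i)))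
        s (update (update s j (c :: s j)) i l) 3 := by
      have hp : ∀ b, Exec (.seq (.push j b) (.pop i)) s
          (update (update s j (b :: s j)) i l) 2 := by
        intro b
        refine (Exec.seq (Exec.push j b s) (Exec.pop i _)).cast ?_ rfl
        simp [Function.update_of_ne hij, hl]
      cases c
      · exact Exec.ite_false (by simp [hl]) (hp false)
      · exact Exec.ite_true (by simp [hl]) (hp true)
    have h1 := ih (update (update s j (c :: s j)) i l) (by simp)
    refine (Exec.loop_step (by simp [hl]) key h1).cast ?_ ?_
    · funext x
      by_cases hx : x = j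
      · subst hx; simp [Function.update_of_ne hij.symm]
      · by_cases hx' : x = i
        · subst hx'; simp [Function.update_of_ne hij]
        · simp [Function.update_of_ne hx, Function.update_of_ne hx']
    · simp only [List.length_cons]; ring

/-- move stack `i` onto both stacks `j` and `k`, reversing it -/
def dupRev (i j k : ℕ) : Prog :=
  .loop i (.ite i .skip
    (.seq (.push j false) (.seq (.push k false) (.pop i)))
    (.seq (.push j true) (.seq (.push k true) (.pop i))))

theorem exec_dupRev {i j k : ℕ} (hij : i ≠ j) (hik : i ≠ k) (hjk : j ≠ k) (s : St) :
    Exec (dupRev i j k) s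
      (update (update (update s i []) j ((s i).reverse ++ s j)) k ((s i).reverse ++ s k))
      (5 * (s i).length + 1) := by
  generalize hl : s i = l
  induction l generalizing s with
  | nil =>
    refine (Exec.loop_done hl).cast ?_ (by simp)
    have : update s i [] = s := by rw [← hl]; simp
    rw [this]; simp
  | cons c l ih =>
    have key : Exec (.ite i .skip
        (.seq (.push j false) (.seq (.push k false) (.pop i)))
        (.seq (.push j true) (.seq (.push k true) (.pop i))))
        s (update (update (update s j (c :: s j)) k (c :: s k)) i l) 4 := by
      have hp : ∀ b, Exec (.seq (.push j b) (.seq (.push k b) (.pop i))) s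
          (update (update (update s j (b :: s j)) k (b :: s k)) i l) 3 := by
        intro b
        refine (Exec.seq (Exec.push j b s) (Exec.seq (Exec.push k b _) (Exec.pop i _))).cast ?_ rfl
        simp [Function.update_of_ne hij, Function.update_of_ne hik,
          Function.update_of_ne hjk.symm, hl]
      cases c
      · exact Exec.ite_false (by simp [hl]) (hp false)
      · exact Exec.ite_true (by simp [hl]) (hp true)
    have h1 := ih (update (update (update s j (c :: s j)) k (c :: s k)) i l) (by simp)
    refine (Exec.loop_step (by simp [hl]) key h1).cast ?_ ?_
    · funext x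
      by_cases hx : x = k
      · subst hx
        simp [Function.update_of_ne hik.symm]
      · by_cases hx' : x = j
        · subst hx'
          simp [Function.update_of_ne hij.symm, Function.update_of_ne hx]
        · by_cases hx'' : x = i
          · subst hx''
            simp [Function.update_of_ne hij, Function.update_of_ne hik]
          · simp [Function.update_of_ne hx, Function.update_of_ne hx', Function.update_of_ne hx'']
    · simp only [List.length_cons]; ring

/-- push the constant list `c` on stack `i` -/
def pushL (i : ℕ) : List Bool → Prog
  | [] => .skip
  | b :: c => .seq (pushL i c) (.push i b)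

theorem exec_pushL (i : ℕ) (c : List Bool) (s : St) :
    Exec (pushL i c) s (update s i (c ++ s i)) (c.length + 1) := by
  induction c with
  | nil => exact (Exec.skip s).cast (by simp) (by simp)
  | cons b c ih =>
    refine (Exec.seq ih (Exec.push i b _)).cast ?_ ?_
    · simp
    · simp

/-- move stack `i` onto stack `j` (order preserved), via the EMPTY stack `k` -/
def move (i j k : ℕ) : Prog := .seq (moveRev i k) (moveRev k j)

theorem exec_move {i j k : ℕ} (hij : i ≠ j) (hik : i ≠ k) (hjk : j ≠ k) (s : St)
    (hk : s k = []) :
    Exec (move i j k) s (update (update s i []) j (s i ++ s j)) (8 * (s i).length + 2) := by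
  refine (Exec.seq (exec_moveRev hik s) (exec_moveRev hjk.symm _)).cast ?_ ?_
  · funext x
    by_cases hx : x = j
    · subst hx; simp [Function.update_of_ne hij.symm, Function.update_of_ne hjk, hk]
    · by_cases hx' : x = k
      · subst hx'; simp [Function.update_of_ne hik.symm, Function.update_of_ne hjk.symm, hk]
      · simp [Function.update_of_ne hx, Function.update_of_ne hx']
  · simp [hk]; ring

/-- copy stack `i` onto stack `j` (order preserved, stack `i` is unchanged),
via the EMPTY stack `k` -/
def copy (i j k : ℕ) : Prog := .seq (moveRev i k) (dupRev k i j)

theorem exec_copy {i j k : ℕ} (hij : i ≠ j) (hik : i ≠ k) (hjk : j ≠ k) (s : St)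
    (hk : s k = []) :
    Exec (copy i j k) s (update s j (s i ++ s j)) (9 * (s i).length + 2) := by
  refine (Exec.seq (exec_moveRev hik s) (exec_dupRev hik.symm hjk.symm hij _)).cast ?_ ?_
  · funext x
    by_cases hx : x = j
    · subst hx; simp [Function.update_of_ne hij.symm, Function.update_of_ne hjk, hk]
    · by_cases hx' : x = k
      · subst hx'
        simp [Function.update_of_ne hik.symm, Function.update_of_ne hjk.symm, hk]
      · by_cases hx'' : x = i
        · subst hx''; simp [Function.update_of_ne hx, Function.update_of_ne hx', hk]
        · simp [Function.update_of_ne hx, Function.update_of_ne hx', Function.update_of_ne hx'']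
  · simp [hk]; ring

/-- exchange stacks `i` and `j`, via the EMPTY stacks `k` and `l` -/
def swap (i j k l : ℕ) : Prog :=
  .seq (moveRev i k) (.seq (moveRev j l) (.seq (moveRev l i) (moveRev k j)))

theorem exec_swap {i j k l : ℕ} (hij : i ≠ j) (hik : i ≠ k) (hil : i ≠ l) (hjk : j ≠ k)
    (hjl : j ≠ l) (hkl : k ≠ l) (s : St) (hk : s k = []) (hl : s l = []) :
    Exec (swap i j k l) s (update (update s i (s j)) j (s i))
      (8 * (s i).length + 8 * (s j).length + 4) := by
  refine (Exec.seq (exec_moveRev hik s) (Exec.seq (exec_moveRev hjl _)
    (Exec.seq (exec_moveRev hil.symm _) (exec_moveRev hjk.symm _)))).cast ?_ ?_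
  · funext x
    by_cases hx : x = i
    · subst hx
      simp [Function.update_of_ne hij, Function.update_of_ne hik, Function.update_of_ne hil,
        Function.update_of_ne hij.symm, Function.update_of_ne hjk, Function.update_of_ne hjl]
      rw [Function.update_of_ne hkl.symm, Function.update_of_ne hil.symm, hl]
    · by_cases hx' : x = j
      · subst hx'
        simp [Function.update_of_ne hij.symm, Function.update_of_ne hik.symm,
          Function.update_of_ne hjk, Function.update_of_ne hjk.symm, Function.update_of_ne hkl,
          Function.update_of_ne hjl, hk]
      · by_cases hx'' : x = k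
        · subst hx''
          simp [Function.update_of_ne hij.symm, Function.update_of_ne hik.symm,
            Function.update_of_ne hjk.symm, hk]
        · by_cases hx3 : x = l
          · subst hx3
            simp [Function.update_of_ne hil.symm, Function.update_of_ne hjl.symm,
              Function.update_of_ne hkl.symm, hl]
          · simp [Function.update_of_ne hx, Function.update_of_ne hx', Function.update_of_ne hx'',
              Function.update_of_ne hx3]
  · have e1 : (update (update s i []) k ((s i).reverse ++ s k)) j = s j := by
      simp [Function.update_of_ne hjk, Function.update_of_ne hij.symm]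
    have e2 : (update (update s i []) k ((s i).reverse ++ s k)) l = [] := by
      simp [Function.update_of_ne hkl.symm, Function.update_of_ne hil.symm, hl]
    rw [e1, e2]
    simp [Function.update_of_ne hkl, Function.update_of_ne hjk.symm,
      Function.update_of_ne hik.symm, hk]
    ring

/-! ### Relocation -/

/-- shift all stack indices by `k` -/
def Prog.shift (k : ℕ) : Prog → Prog
  | .skip => .skip
  | .push i b => .push (k + i) b
  | .pop i => .pop (k + i)
  | .seq p q => .seq (p.shift k) (q.shift k)
  | .ite i p q r => .ite (k + i) (p.shift k) (q.shift k) (r.shift k)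
  | .loop i p => .loop (k + i) (p.shift k)

/-- the state `s` placed at stacks `≥ k`, the state `u` below `k` -/
def liftSt (k : ℕ) (u s : St) : St := fun j => if j < k then u j else s (j - k)

@[simp] theorem liftSt_add (k : ℕ) (u s : St) (i : ℕ) : liftSt k u s (k + i) = s i := by
  simp [liftSt]

theorem liftSt_update (k : ℕ) (u s : St) (i : ℕ) (v : List Bool) :
    update (liftSt k u s) (k + i) v = liftSt k u (update s i v) := by
  funext x
  by_cases hx : x = k + i
  · subst hx; simp
  · rw [Function.update_of_ne hx]
    unfold liftSt
    split_ifs with h
    · rfl
    · have : x - k ≠ i := by omega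
      rw [Function.update_of_ne this]

theorem Exec.shift {p : Prog} {s s' : St} {t : ℕ} (h : Exec p s s' t) (k : ℕ) (u : St) :
    Exec (p.shift k) (liftSt k u s) (liftSt k u s') t := by
  induction h with
  | skip s => exact Exec.skip _
  | push i b s =>
    exact (Exec.push (k + i) b _).cast (by rw [liftSt_update, liftSt_add]) rfl
  | pop i s =>
    exact (Exec.pop (k + i) _).cast (by rw [liftSt_update, liftSt_add]) rfl
  | seq _ _ ih1 ih2 => exact Exec.seq ih1 ih2
  | ite_nil h _ ih => exact Exec.ite_nil (by simpa using h) ih
  | ite_false h _ ih => exact Exec.ite_false (by simpa using h) ih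
  | ite_true h _ ih => exact Exec.ite_true (by simpa using h) ih
  | loop_done h => exact Exec.loop_done (by simpa using h)
  | loop_step h _ _ ih1 ih2 => exact Exec.loop_step (by simpa using h) ih1 ih2

@[simp] theorem init_zero (x : List Bool) : init x 0 = x := rfl

theorem init_pos (x : List Bool) {j : ℕ} (hj : 0 < j) : init x j = [] := by
  simp [init, Nat.pos_iff_ne_zero.mp hj]

end Crest.Agent.PT
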