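import Crest.Agent.PT.Mac2

set_option autoImplicit false

namespace Crest.Agent.PT

open Function (update)

/-- polynomials over `ℕ` are monotone -/
theorem poly_mono (P : Polynomial ℕ) {a b : ℕ} (h : a ≤ b) : P.eval a ≤ P.eval b := by
  simp only [Polynomial.eval_eq_sum, Polynomial.sum]
  exact Finset.sum_le_sum fun i _ => Nat.mul_le_mul_left _ (Nat.pow_le_pow_left h i)

/-- run a `PT` program in place on stack `k`, frame below `k` arbitrary -/
theorem PT.at {f : List Bool → List Bool} (h : PT f) (k : ℕ) : PTat k f := by
  obtain ⟨p, P, h⟩ := h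
  refine ⟨p.shift k, P, fun s hs => ?_⟩
  obtain ⟨t, ht, he⟩ := h (s k)
  refine ⟨t, ht, ?_⟩
  have h1 := he.shift k s
  have e1 : ∀ y, liftSt k s (init y) = update s k y := by
    intro y
    funext j
    unfold liftSt
    split_ifs with hj
    · rw [Function.update_of_ne (by omega)]
    · by_cases hjk : j = k
      · subst hjk; simp [init]
      · rw [init_pos _ (by omega), Function.update_of_ne hjk, hs j (by omega)]
  rw [e1, e1, Function.update_eq_self] at h1
  exact h1

theorem update_init (x y : List Bool) : update (init x) 0 y = init y := by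
  funext j
  by_cases hj : j = 0
  · subst hj; simp
  · rw [Function.update_of_ne hj, init_pos _ (by omega), init_pos _ (by omega)]

theorem PT.of_at {f : List Bool → List Bool} (h : PTat 0 f) : PT f := by
  obtain ⟨p, P, h⟩ := h
  refine ⟨p, P, fun x => ?_⟩
  obtain ⟨t, ht, he⟩ := h (init x) (fun j hj => init_pos x hj)
  refine ⟨t, by simpa using ht, ?_⟩
  rw [init_zero, update_init] at he
  exact he

/-- a run of cost `t` adds at most `t` symbols to every stack -/
theorem Exec.length_le {p : Prog} {s s' : St} {t : ℕ} (h : Exec p s s' t) (i : ℕ) :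
    (s' i).length ≤ (s i).length + t := by
  induction h with
  | skip s => omega
  | push j b s =>
    by_cases hj : i = j
    · subst hj; simp
    · rw [Function.update_of_ne hj]; omega
  | pop j s =>
    by_cases hj : i = j
    · subst hj; simp; omega
    · rw [Function.update_of_ne hj]; omega
  | seq _ _ ih1 ih2 => omega
  | ite_nil _ _ ih => omega
  | ite_false _ _ ih => omega
  | ite_true _ _ ih => omega
  | loop_done _ => omega
  | loop_step _ _ _ ih1 ih2 => omega

/-- output length is polynomially bounded -/
theorem PT_size {f : List Bool → List Bool} (h : PT f) :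
    ∃ P : Polynomial ℕ, ∀ x, (f x).length ≤ P.eval x.length := by
  obtain ⟨p, P, h⟩ := h
  refine ⟨Polynomial.X + P, fun x => ?_⟩
  obtain ⟨t, ht, he⟩ := h x
  have := he.length_le 0
  simp only [init_zero] at this
  simp only [Polynomial.eval_add, Polynomial.eval_X]
  omega

/-! ### Running programs in place, one after the other

`Run k p s s' P` : from `s`, `p` reaches `s'` within `P`. -/

/-- `PTat` with the final state given up to equality -/
theorem PTat.run {k : ℕ} {f : List Bool → List Bool} (h : PTat k f) :
    ∃ (p : Prog) (P : Polynomial ℕ), ∀ s : St, (∀ j, k < j → s j = []) →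
      ∀ s' : St, s' = update s k (f (s k)) → ∀ n, (s k).length ≤ n →
      ∃ t : ℕ, t ≤ P.eval n ∧ Exec p s s' t := by
  obtain ⟨p, P, h⟩ := h
  refine ⟨p, P, fun s hs s' hs' n hn => ?_⟩
  obtain ⟨t, ht, he⟩ := h s hs
  subst hs'
  exact ⟨t, ht.trans (poly_mono P hn), he⟩

end Crest.Agent.PT
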