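import Crest.Agent.PT.CBasic
import Crest.Agent.PT.CPair
import Crest.Agent.PT.CProj
import Crest.Agent.PT.CIter

set_option autoImplicit false

namespace Crest.Agent.PT

variable {α β γ δ : Type} [Enc α] [Enc β] [Enc γ] [Enc δ]

theorem PF.size {f : α → β} (h : PF f) : PB f := by
  obtain ⟨g, hg, h⟩ := h
  obtain ⟨P, hP⟩ := PT_size hg
  refine ⟨P, fun a => ?_⟩
  have := hP (enc a)
  rw [h a] at this
  exact this

theorem PF.id : PF (fun a : α => a) :=
  ⟨fun x => x, PT_id, fun _ => rfl⟩

theorem PF.comp {g : β → γ} {f : α → β} (hg : PF g) (hf : PF f) : PF (fun a => g (f a)) := by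
  obtain ⟨g', hg', h1⟩ := hg
  obtain ⟨f', hf', h2⟩ := hf
  exact ⟨fun x => g' (f' x), PT_comp hf' hg', fun a => by simp only [h2, h1]⟩

theorem PF.const (b : β) : PF (fun _ : α => b) :=
  ⟨fun _ => enc b, PT_const (enc b), fun _ => rfl⟩

theorem PF.pair {f : α → β} {g : α → γ} (hf : PF f) (hg : PF g) : PF (fun a => (f a, g a)) := by
  obtain ⟨f', hf', h1⟩ := hf
  obtain ⟨g', hg', h2⟩ := hg
  exact ⟨fun x => pr (f' x) (g' x), PT_pair hf' hg', fun a => by simp only [h1, h2, enc_pair]⟩

theorem PF.fst {f : α → β × γ} (hf : PF f) : PF (fun a => (f a).1) := by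
  obtain ⟨f', hf', h1⟩ := hf
  refine ⟨fun x => fstP (f' x), PT_comp hf' PT_fst, fun a => ?_⟩
  simp only [h1]
  exact fstP_pr _ _

theorem PF.snd {f : α → β × γ} (hf : PF f) : PF (fun a => (f a).2) := by
  obtain ⟨f', hf', h1⟩ := hf
  refine ⟨fun x => sndP (f' x), PT_comp hf' PT_snd, fun a => ?_⟩
  simp only [h1]
  exact sndP_pr _ _

/-- three-way branch on the head of a computed string -/
theorem PT_branch {c f g h : List Bool → List Bool} (hc : PT c) (hf : PT f) (hg : PT g)
    (hh : PT h) :
    PT (fun x => match c x with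
      | [] => f x
      | false :: _ => g x
      | true :: _ => h x) := by
  have hk := PT_cases (f := fun _ => []) (g := fun y => g (sndP (true :: y)))
    (h := fun y => h (sndP (true :: y))) (PT_const [])
    (PT_comp (PT_comp (PT_cons true) PT_snd) hg) (PT_comp (PT_comp (PT_cons true) PT_snd) hh)
  have h2 := PT_cases PT_id (PT_comp PT_tail hf) (PT_comp PT_tail hk)
  have h3 := PT_comp (PT_pair hc PT_id) h2
  refine (congrArg PT (funext fun x => ?_)).mp h3
  cases hx : c x with
  | nil => simp
  | cons b l => cases b <;> simp [sndP]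

/-- conditional on a Boolean-valued function -/
theorem PF.cond {c : α → Bool} {f g : α → β} (hc : PF c) (hf : PF f) (hg : PF g) :
    PF (fun a => if c a = true then f a else g a) := by
  obtain ⟨c', hc', h0⟩ := hc
  obtain ⟨f', hf', h1⟩ := hf
  obtain ⟨g', hg', h2⟩ := hg
  refine ⟨_, PT_branch hc' hg' hg' hf', fun a => ?_⟩
  simp only [h0, enc_bool]
  cases hca : c a
  · simp [h2]
  · simp [h1]

theorem PF.bnot {c : α → Bool} (hc : PF c) : PF (fun a => !(c a)) := by
  have h := PF.cond hc (PF.const (α := α) false) (PF.const (α := α) true)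
  have e : (fun a => !(c a)) = fun a => if c a = true then false else true := by
    funext a; cases c a <;> rfl
  rw [e]; exact h

theorem PF.band {c d : α → Bool} (hc : PF c) (hd : PF d) : PF (fun a => c a && d a) := by
  have h := PF.cond hc hd (PF.const (α := α) false)
  have e : (fun a => c a && d a) = fun a => if c a = true then d a else false := by
    funext a; cases c a <;> rfl
  rw [e]; exact h

theorem PF.bor {c d : α → Bool} (hc : PF c) (hd : PF d) : PF (fun a => c a || d a) := by
  have h := PF.cond hc (PF.const (α := α) true) hd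
  have e : (fun a => c a || d a) = fun a => if c a = true then true else d a := by
    funext a; cases c a <;> rfl
  rw [e]; exact h

end Crest.Agent.PT
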