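import Crest.Agent.PT.TList

set_option autoImplicit false

namespace Crest.Agent.PT

namespace TFold

theorem length_fstP_le (x : List Bool) : (fstP x).length ≤ x.length := by
  fun_induction fstP x with
  | case1 c l ih => simp only [List.length_cons]; omega
  | case2 => simp

theorem length_sndP_le (x : List Bool) : (sndP x).length ≤ x.length := by
  fun_induction sndP x with
  | case1 c l ih => simp only [List.length_cons]; omega
  | case2 => simp
  | case3 => simp

theorem iterate_tail (n : ℕ) (x : List Bool) : (fun y : List Bool => y.tail)^[n] x = x.drop n := by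
  induction n generalizing x with
  | zero => simp
  | succ n ih => rw [Function.iterate_succ_apply, ih]; simp

theorem PT_dropP : PT (fun x => (sndP x).drop (fstP x).length) := by
  have h := PT_iter PT_tail ⟨Polynomial.X, fun x i _ => by
    rw [iterate_tail]
    simp only [List.length_drop, Polynomial.eval_X]
    have := length_sndP_le x
    omega⟩
  simpa only [iterate_tail] using h

theorem PT_ifnil {c f g : List Bool → List Bool} (hc : PT c) (hf : PT f) (hg : PT g) :
    PT (fun x => if c x = [] then f x else g x) := by
  have h1 : PT (fun x => pr (c x) x) := PT_pair hc PT_id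
  have h2 := PT_cases (PT_const []) (PT_comp PT_snd hf) (PT_comp PT_snd hg)
  have h3 := PT_comp h1 h2
  have e : (fun x => if c x = [] then f x else g x) = fun x =>
      (match pr (c x) x with
      | [] => (fun _ : List Bool => []) []
      | false :: l => (fun x => f (sndP x)) (false :: l)
      | true :: l => (fun x => g (sndP x)) (true :: l)) := by
    funext x
    cases h : c x with
    | nil => simp [sndP]
    | cons b l => simp [sndP]
  rw [e]
  exact h3

/-- keep the second component if it is not longer than the first one -/
def clampP (x : List Bool) : List Bool :=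
  if (sndP x).drop (fstP x).length = [] then sndP x else []

theorem PT_clampP : PT clampP := PT_ifnil PT_dropP PT_snd (PT_const [])

theorem length_clampP_le (x : List Bool) : (clampP x).length ≤ (fstP x).length := by
  unfold clampP
  split_ifs with h
  · simpa [List.drop_eq_nil_iff] using h
  · simp

theorem clampP_pr {a b : List Bool} (h : b.length ≤ a.length) : clampP (pr a b) = b := by
  unfold clampP
  rw [if_pos]
  · simp
  · simpa [List.drop_eq_nil_iff] using h

/-- one step of multiplication -/
def mstep (s : List Bool) : List Bool := pr (fstP s) (pr (fstP s) (sndP s))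

theorem PT_mstep : PT mstep := PT_pair PT_fst (PT_pair PT_fst PT_snd)

theorem mstep_iter (i : ℕ) (s : List Bool) :
    fstP (mstep^[i] s) = fstP s ∧
      (sndP (mstep^[i] s)).length = (sndP s).length + i * (2 * (fstP s).length + 1) := by
  induction i with
  | zero => simp
  | succ i ih =>
    rw [Function.iterate_succ_apply']
    obtain ⟨h1, h2⟩ := ih
    refine ⟨by simp [mstep, h1], ?_⟩
    simp only [mstep, sndP_pr, length_pr, h1, h2]
    ring

theorem mstep_len (i : ℕ) (s : List Bool) :
    (mstep^[i] s).length ≤ 3 * s.length + 1 + i * (2 * s.length + 1) := by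
  have hf := length_fstP_le s
  have hs := length_sndP_le s
  have hm : i * (2 * (fstP s).length + 1) ≤ i * (2 * s.length + 1) :=
    Nat.mul_le_mul_left _ (by omega)
  cases i with
  | zero => simp; omega
  | succ i =>
    obtain ⟨h1, h2⟩ := mstep_iter i s
    rw [Function.iterate_succ_apply']
    have e : (mstep (mstep^[i] s)).length
        = 2 * (fstP s).length + 1 + (2 * (fstP s).length + 1 +
          ((sndP s).length + i * (2 * (fstP s).length + 1))) := by
      simp only [mstep, length_pr, h1, h2]
    rw [e]
    have : (i + 1) * (2 * (fstP s).length + 1)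
        = i * (2 * (fstP s).length + 1) + (2 * (fstP s).length + 1) := by ring
    omega

/-- strings of length at least the product of the lengths -/
theorem PT_mul {f g : List Bool → List Bool} (hf : PT f) (hg : PT g) :
    ∃ h : List Bool → List Bool, PT h ∧ ∀ x, (f x).length * (g x).length ≤ (h x).length := by
  have h1 : PT (fun x => mstep^[(fstP x).length] (sndP x)) := PT_iter PT_mstep
    ⟨3 * Polynomial.X + 1 + Polynomial.X * (2 * Polynomial.X + 1), fun x i hi => by
      refine (mstep_len i (sndP x)).trans ?_
      have hf := length_fstP_le x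
      have hs := length_sndP_le x
      simp only [Polynomial.eval_add, Polynomial.eval_mul, Polynomial.eval_X, Polynomial.eval_one,
        Polynomial.eval_ofNat]
      have : i * (2 * (sndP x).length + 1) ≤ x.length * (2 * x.length + 1) :=
        Nat.mul_le_mul (by omega) (by omega)
      omega⟩
  refine ⟨fun x => mstep^[(fstP (pr (f x) (pr (g x) []))).length] (sndP (pr (f x) (pr (g x) []))),
    PT_comp (PT_pair hf (PT_pair hg (PT_const []))) h1, fun x => ?_⟩
  simp only [fstP_pr, sndP_pr]
  have h2 := (mstep_iter (f x).length (pr (g x) [])).2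
  have h3 := length_sndP_le (mstep^[(f x).length] (pr (g x) []))
  simp only [sndP_pr, fstP_pr, List.length_nil, zero_add] at h2
  have : (f x).length * (g x).length ≤ (f x).length * (2 * (g x).length + 1) :=
    Nat.mul_le_mul_left _ (by omega)
  omega

/-- polynomial clocks -/
theorem exists_clock (P : Polynomial ℕ) :
    ∃ g : List Bool → List Bool, PT g ∧ ∀ x, P.eval x.length ≤ (g x).length := by
  induction P using Polynomial.induction_on' with
  | add p q hp hq =>
    obtain ⟨g, hg, hg'⟩ := hp
    obtain ⟨h, hh, hh'⟩ := hq
    refine ⟨fun x => pr (g x) (h x), PT_pair hg hh, fun x => ?_⟩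
    have h1 := hg' x
    have h2 := hh' x
    simp only [Polynomial.eval_add, length_pr]
    omega
  | monomial n a =>
    induction n with
    | zero =>
      refine ⟨fun _ => List.replicate a true, PT_const _, fun x => ?_⟩
      simp
    | succ n ih =>
      obtain ⟨g, hg, hg'⟩ := ih
      obtain ⟨h, hh, hh'⟩ := PT_mul hg PT_id
      refine ⟨h, hh, fun x => ?_⟩
      have h1 := hg' x
      have h2 := hh' x
      refine le_trans ?_ h2
      rw [Polynomial.eval_monomial] at h1 ⊢
      rw [pow_succ, ← mul_assoc]
      exact Nat.mul_le_mul_right _ h1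

/-- clamped step -/
def cstep (g : List Bool → List Bool) (y : List Bool) : List Bool :=
  pr (fstP y) (pr (fstP (sndP y)) (clampP (pr (fstP y) (g (sndP y)))))

theorem PT_cstep {g : List Bool → List Bool} (hg : PT g) : PT (cstep g) :=
  PT_pair PT_fst (PT_pair (PT_comp PT_snd PT_fst)
    (PT_comp (PT_pair PT_fst (PT_comp PT_snd hg)) PT_clampP))

theorem cstep_iter (g : List Bool → List Bool) (i : ℕ) (s : List Bool) :
    fstP ((cstep g)^[i] s) = fstP s ∧ fstP (sndP ((cstep g)^[i] s)) = fstP (sndP s) := by
  induction i with
  | zero => simp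
  | succ i ih =>
    rw [Function.iterate_succ_apply']
    obtain ⟨h1, h2⟩ := ih
    exact ⟨by simp [cstep, h1], by simp [cstep, h2]⟩

theorem cstep_len (g : List Bool → List Bool) (i : ℕ) (s : List Bool) :
    ((cstep g)^[i] s).length ≤ 5 * s.length + 2 := by
  cases i with
  | zero => simp; omega
  | succ i =>
    obtain ⟨h1, h2⟩ := cstep_iter g i s
    rw [Function.iterate_succ_apply']
    have hf := length_fstP_le s
    have hs := length_sndP_le s
    have hs' := length_fstP_le (sndP s)
    have hc := length_clampP_le
      (pr (fstP ((cstep g)^[i] s)) (g (sndP ((cstep g)^[i] s))))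
    rw [fstP_pr] at hc
    unfold cstep at hc ⊢
    unfold cstep at h1 h2
    simp only [length_pr]
    rw [h1, h2]
    rw [h1] at hc
    omega

/-- unary length of a string -/
theorem PT_unary : PT (fun x => List.replicate x.length true) := by
  have e : ∀ (n : ℕ) (y : List Bool), (fun y : List Bool => true :: y)^[n] y
      = List.replicate n true ++ y := by
    intro n y
    induction n with
    | zero => simp
    | succ n ih => rw [Function.iterate_succ_apply', ih]; rfl
  have h := PT_iter (PT_cons true) ⟨Polynomial.X + Polynomial.X, fun x i hi => by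
    rw [e]
    have hf := length_fstP_le x
    have hs := length_sndP_le x
    simp only [List.length_append, List.length_replicate, Polynomial.eval_add, Polynomial.eval_X]
    omega⟩
  have h2 := PT_comp (PT_pair PT_id (PT_const [])) h
  simpa only [fstP_pr, sndP_pr, e, List.append_nil] using h2

end TFold

open TFold

variable {α β γ δ : Type} [Enc α] [Enc β] [Enc γ] [Enc δ]

/-- size of a code, as a unary number -/
theorem PF.usize {f : α → β} (hf : PF f) : PF (fun a => sz (f a)) := by
  obtain ⟨g, hg, hg'⟩ := hf
  refine ⟨_, PT_comp hg PT_unary, fun a => ?_⟩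
  simp [hg', sz]

/-- bounded iteration with a unary counter -/
theorem PF.iterate {f : α × β → β} {n : α → ℕ} {b : α → β} (hf : PF f) (hn : PF n) (hb : PF b)
    (hbd : ∃ P : Polynomial ℕ, ∀ a : α, ∀ i ≤ n a, sz ((fun x => f (a, x))^[i] (b a)) ≤ P.eval (sz a)) :
    PF (fun a => (fun x => f (a, x))^[n a] (b a)) := by
  obtain ⟨gf, hgf, hgf'⟩ := hf
  obtain ⟨gn, hgn, hgn'⟩ := hn
  obtain ⟨gb, hgb, hgb'⟩ := hb
  obtain ⟨P, hP⟩ := hbd
  obtain ⟨N, hN, hN'⟩ := exists_clock P
  have h1 : PT (fun x => (cstep gf)^[(fstP x).length] (sndP x)) := PT_iter (PT_cstep hgf)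
    ⟨5 * Polynomial.X + 2, fun x i _ => by
      refine (cstep_len gf i (sndP x)).trans ?_
      have hs := length_sndP_le x
      simp only [Polynomial.eval_add, Polynomial.eval_mul, Polynomial.eval_X,
        Polynomial.eval_ofNat]
      omega⟩
  have h2 := PT_comp (PT_pair hgn (PT_pair hN (PT_pair PT_id hgb))) (PT_comp h1
    (PT_comp PT_snd PT_snd))
  refine ⟨_, h2, fun a => ?_⟩
  simp only [fstP_pr, sndP_pr, hgn' a, hgb' a, enc_nat, List.length_replicate]
  have key : ∀ i ≤ n a, (cstep gf)^[i] (pr (N (enc a)) (pr (enc a) (enc (b a))))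
      = pr (N (enc a)) (pr (enc a) (enc ((fun x => f (a, x))^[i] (b a)))) := by
    intro i
    induction i with
    | zero => intro _; rfl
    | succ i ih =>
      intro hi
      rw [Function.iterate_succ_apply', ih (by omega), Function.iterate_succ_apply']
      have h3 : gf (pr (enc a) (enc ((fun x => f (a, x))^[i] (b a))))
          = enc (f (a, (fun x => f (a, x))^[i] (b a))) := hgf' (a, _)
      simp only [cstep, fstP_pr, sndP_pr, h3]
      rw [clampP_pr]
      have h4 := hP a (i + 1) hi
      rw [Function.iterate_succ_apply'] at h4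
      exact h4.trans (hN' (enc a))
  rw [key _ le_rfl]
  simp

/-- one step of the fold -/
def TFold.fstep (f : α × β × γ → β) (p : α × β × List γ) : β × List γ :=
  match p.2.2 with
  | [] => p.2
  | c :: t => (f (p.1, p.2.1, c), t)

theorem TFold.PF_fstep {f : α × β × γ → β} (hf : PF f) : PF (TFold.fstep f) := by
  have hid : PF (fun p : α × β × List γ => p) := PF.id
  have hl : PF (fun p : α × β × List γ => p.2.2) := PF.snd (PF.snd hid)
  have hn : PF (fun p : α × β × List γ => p.2) := PF.snd hid
  have hid' : PF (fun q : (α × β × List γ) × γ × List γ => q) := PF.id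
  have hc : PF (fun q : (α × β × List γ) × γ × List γ =>
      (f (q.1.1, q.1.2.1, q.2.1), q.2.2)) :=
    PF.pair (PF.comp hf (PF.pair (PF.fst (PF.fst hid')) (PF.pair (PF.fst (PF.snd (PF.fst hid')))
      (PF.fst (PF.snd hid'))))) (PF.snd (PF.snd hid'))
  have := PF.list_cases hl hn hc
  exact this

theorem TFold.sz_pair (a : α) (b : β) : sz (a, b) = 2 * sz a + 1 + sz b := by
  simp [sz]

theorem TFold.sz_cons (a : α) (l : List α) : sz (a :: l) = 2 * sz a + 1 + sz l := by
  simp [sz]

theorem TFold.length_le_sz (l : List α) : l.length ≤ sz l := by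
  induction l with
  | nil => simp
  | cons a l ih => rw [TFold.sz_cons]; simp only [List.length_cons]; omega

theorem TFold.sz_drop_le (i : ℕ) (l : List α) : sz (l.drop i) ≤ sz l := by
  induction l generalizing i with
  | nil => simp
  | cons a l ih =>
    cases i with
    | zero => simp
    | succ i =>
      have := ih i
      rw [TFold.sz_cons, List.drop_succ_cons]
      omega

omit [Enc α] [Enc β] [Enc γ] in
theorem TFold.fstep_iter (f : α × β × γ → β) (a : α) (b : β) (l : List γ) (i : ℕ) :
    (fun x => TFold.fstep f (a, x))^[i] (b, l)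
      = ((l.take i).foldl (fun x c => f (a, x, c)) b, l.drop i) := by
  induction i with
  | zero => simp
  | succ i ih =>
    rw [Function.iterate_succ_apply', ih]
    by_cases h : i < l.length
    · have h1 : l.drop i = l[i] :: l.drop (i + 1) := List.drop_eq_getElem_cons h
      have h2 : l.take (i + 1) = l.take i ++ [l[i]] := by
        rw [List.take_add_one]; simp [h]
      rw [h1, h2, List.foldl_append]
      simp [TFold.fstep]
    · have h1 : l.drop i = [] := List.drop_eq_nil_of_le (by omega)
      have h2 : l.drop (i + 1) = [] := List.drop_eq_nil_of_le (by omega)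
      have h3 : l.take (i + 1) = l.take i := by
        rw [List.take_of_length_le (by omega), List.take_of_length_le (by omega)]
      rw [h1, h2, h3]
      simp [TFold.fstep]

/-- bounded left fold -/
theorem PF.foldl {f : α × β × γ → β} {b : α → β} {l : α → List γ} (hf : PF f) (hb : PF b)
    (hl : PF l)
    (hbd : ∃ P : Polynomial ℕ, ∀ a : α, ∀ l' : List γ, l' <+: l a →
      sz (l'.foldl (fun x c => f (a, x, c)) (b a)) ≤ P.eval (sz a)) :
    PF (fun a => (l a).foldl (fun x c => f (a, x, c)) (b a)) := by
  obtain ⟨P, hP⟩ := hbd
  obtain ⟨Q, hQ⟩ := PF.size hl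
  have h := PF.iterate (TFold.PF_fstep hf) (PF.usize hl) (PF.pair hb hl)
    ⟨2 * P + 1 + Q, fun a i _ => by
      rw [TFold.fstep_iter, TFold.sz_pair]
      have h1 := hP a ((l a).take i) (List.take_prefix _ _)
      have h2 := hQ a
      have h3 := TFold.sz_drop_le i (l a)
      simp only [Polynomial.eval_add, Polynomial.eval_mul, Polynomial.eval_one,
        Polynomial.eval_ofNat]
      omega⟩
  have h2 := PF.fst h
  have e : (fun a => (l a).foldl (fun x c => f (a, x, c)) (b a)) = fun a =>
      ((fun x => TFold.fstep f (a, x))^[sz (l a)] (b a, l a)).1 := by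
    funext a
    rw [TFold.fstep_iter, List.take_of_length_le (TFold.length_le_sz _)]
  rw [e]
  exact h2

end Crest.Agent.PT
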