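import Crest.Agent.PT.TBasic

set_option autoImplicit false

namespace Crest.Agent.PT

variable {α β γ δ : Type} [Enc α] [Enc β] [Enc γ] [Enc δ]

/-- case distinction on emptiness of a computed string -/
theorem PT_ifEmpty {L F G : List Bool → List Bool} (hL : PT L) (hF : PT F) (hG : PT G) :
    PT (fun x => match L x with
      | [] => F x
      | _ :: _ => G x) := by
  have h := PT_comp (PT_pair hL PT_id)
    (PT_cases (f := fun _ => []) (g := fun y => F y.tail) (h := fun y => G (sndP y))
      (PT_const []) (PT_comp PT_tail hF) (PT_comp PT_snd hG))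
  have e : (fun x => match L x with
      | [] => F x
      | _ :: _ => G x) = (fun x => (fun y : List Bool => match y with
      | [] => []
      | false :: l => F (false :: l).tail
      | true :: l => G (sndP (true :: l))) (pr (L x) x)) := by
    funext x
    cases hx : L x with
    | nil => simp
    | cons c l =>
      simp only [pr_cons]
      have : sndP (true :: c :: pr l x) = x := by
        rw [← pr_cons, sndP_pr]
      rw [this]
  rw [e]
  exact h

theorem PF.nil : PF (fun _ : α => ([] : List β)) := PF.const _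

theorem PF.cons {f : α → β} {g : α → List β} (hf : PF f) (hg : PF g) :
    PF (fun a => f a :: g a) := by
  obtain ⟨F, hF, eF⟩ := hf
  obtain ⟨G, hG, eG⟩ := hg
  exact ⟨fun x => pr (F x) (G x), PT_pair hF hG, fun a => by simp [eF, eG]⟩

theorem enc_list_ne {β : Type} [Enc β] (b : β) (t : List β) : enc (b :: t) ≠ [] := by
  intro h
  have := congrArg List.length h
  simp at this

/-- case distinction on a list -/
theorem PF.list_cases {l : α → List β} {f : α → γ} {g : α × β × List β → γ}
    (hl : PF l) (hf : PF f) (hg : PF g) :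
    PF (fun a => match l a with
      | [] => f a
      | b :: t => g (a, b, t)) := by
  obtain ⟨L, hL, eL⟩ := hl
  obtain ⟨F, hF, eF⟩ := hf
  obtain ⟨G, hG, eG⟩ := hg
  refine ⟨_, PT_ifEmpty hL hF (PT_comp (PT_pair PT_id hL) hG), fun a => ?_⟩
  beta_reduce
  cases h : l a with
  | nil =>
    have h1 : L (enc a) = [] := by rw [eL, h]; rfl
    simp only [h1]
    exact eF a
  | cons b t =>
    have h1 : L (enc a) = enc (b :: t) := by rw [eL, h]
    cases h2 : enc (b :: t) with
    | nil => exact absurd h2 (enc_list_ne b t)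
    | cons c u =>
      simp only [h1, h2]
      rw [← h2, ← eG]
      rfl

theorem PF.tail {l : α → List β} (hl : PF l) : PF (fun a => (l a).tail) := by
  obtain ⟨L, hL, eL⟩ := hl
  refine ⟨_, PT_comp hL PT_snd, fun a => ?_⟩
  simp only [eL]
  cases l a with
  | nil => rfl
  | cons b t => simp

theorem PF.head? {l : α → List β} (hl : PF l) : PF (fun a => (l a).head?) := by
  obtain ⟨L, hL, eL⟩ := hl
  refine ⟨_, PT_ifEmpty hL (PT_const []) (PT_comp (PT_comp hL PT_fst) (PT_cons true)),
    fun a => ?_⟩
  beta_reduce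
  cases h : l a with
  | nil =>
    have h1 : L (enc a) = [] := by rw [eL, h]; rfl
    simp only [h1]
    rfl
  | cons b t =>
    have h1 : L (enc a) = enc (b :: t) := by rw [eL, h]
    cases h2 : enc (b :: t) with
    | nil => exact absurd h2 (enc_list_ne b t)
    | cons c u =>
      simp only [h1, h2]
      rw [← h2]
      simp

theorem PF.isEmpty {l : α → List β} (hl : PF l) : PF (fun a => (l a).isEmpty) := by
  obtain ⟨L, hL, eL⟩ := hl
  refine ⟨_, PT_ifEmpty hL (PT_const [true]) (PT_const [false]), fun a => ?_⟩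
  beta_reduce
  cases h : l a with
  | nil =>
    have h1 : L (enc a) = [] := by rw [eL, h]; rfl
    simp only [h1]
    rfl
  | cons b t =>
    have h1 : L (enc a) = enc (b :: t) := by rw [eL, h]
    cases h2 : enc (b :: t) with
    | nil => exact absurd h2 (enc_list_ne b t)
    | cons c u =>
      simp only [h1, h2]
      rfl

theorem PF.osome {f : α → β} (hf : PF f) : PF (fun a => some (f a)) := by
  obtain ⟨F, hF, eF⟩ := hf
  exact ⟨_, PT_comp hF (PT_cons true), fun a => by simp [eF]⟩

theorem PF.option_cases {o : α → Option β} {f : α → γ} {g : α × β → γ}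
    (ho : PF o) (hf : PF f) (hg : PF g) :
    PF (fun a => match o a with
      | none => f a
      | some b => g (a, b)) := by
  obtain ⟨O, hO, eO⟩ := ho
  obtain ⟨F, hF, eF⟩ := hf
  obtain ⟨G, hG, eG⟩ := hg
  refine ⟨_, PT_ifEmpty hO hF (PT_comp (PT_pair PT_id (PT_comp hO PT_tail)) hG), fun a => ?_⟩
  beta_reduce
  cases h : o a with
  | none =>
    have h1 : O (enc a) = [] := by rw [eO, h]; rfl
    simp only [h1]
    exact eF a
  | some b =>
    have h1 : O (enc a) = true :: enc b := by rw [eO, h]; rfl
    simp only [h1, List.tail_cons]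
    rw [← eG]
    rfl

theorem PF.isSome {o : α → Option β} (ho : PF o) : PF (fun a => (o a).isSome) := by
  obtain ⟨O, hO, eO⟩ := ho
  refine ⟨_, PT_ifEmpty hO (PT_const [false]) (PT_const [true]), fun a => ?_⟩
  beta_reduce
  cases h : o a with
  | none =>
    have h1 : O (enc a) = [] := by rw [eO, h]; rfl
    simp only [h1]
    rfl
  | some b =>
    have h1 : O (enc a) = true :: enc b := by rw [eO, h]; rfl
    simp only [h1]
    rfl

/-- unary numbers -/
theorem PF.succ {n : α → ℕ} (hn : PF n) : PF (fun a => n a + 1) := by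
  obtain ⟨N, hN, eN⟩ := hn
  exact ⟨_, PT_comp hN (PT_cons true), fun a => by simp [eN, List.replicate_succ]⟩

theorem PF.pred {n : α → ℕ} (hn : PF n) : PF (fun a => n a - 1) := by
  obtain ⟨N, hN, eN⟩ := hn
  exact ⟨_, PT_comp hN PT_tail, fun a => by simp [eN]⟩

theorem PF.nat_cases {n : α → ℕ} {f : α → γ} {g : α × ℕ → γ}
    (hn : PF n) (hf : PF f) (hg : PF g) :
    PF (fun a => match n a with
      | 0 => f a
      | k + 1 => g (a, k)) := by
  obtain ⟨N, hN, eN⟩ := hn
  obtain ⟨F, hF, eF⟩ := hf
  obtain ⟨G, hG, eG⟩ := hg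
  refine ⟨_, PT_ifEmpty hN hF (PT_comp (PT_pair PT_id (PT_comp hN PT_tail)) hG), fun a => ?_⟩
  beta_reduce
  cases h : n a with
  | zero =>
    have h1 : N (enc a) = [] := by rw [eN, h]; rfl
    simp only [h1]
    exact eF a
  | succ k =>
    have h1 : N (enc a) = true :: enc k := by rw [eN, h]; simp [List.replicate_succ]
    simp only [h1, List.tail_cons]
    rw [← eG]
    rfl

end Crest.Agent.PT
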